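import Vale.Agent.Lib.P064M.FinalV
import Vale.Agent.Lib.P064W.Final
import Vale.Agent.Lib.P064X.XFinal
import Vale.Agent.Lib.P064.SharpFinal

/-!
Outside the window around `n p_E^2 = 1` the exponent is below one half: `(log n)^(9/20)` per edge.
-/

open Finset

namespace Vale.Agent.Lib.P064M

open Vale.Agent.Lib.P064 Vale.Agent.Lib.P064E Vale.Agent.Lib.P064U Vale.Agent.Lib.P064T
open scoped Classical

/-- The pendant term in the middle range. -/
lemma pend_le {L a P N : ℝ} (hN : N = Real.exp L) (hP : P = Real.exp (-(a * L))) (hL : 0 < L)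
    (ha : a ≤ 22 / 25) : L / N ≤ (25 / 3) * P := by
  rw [hN, hP, div_le_iff₀ (Real.exp_pos _)]
  have h1 : (3 / 25) * L ≤ Real.exp ((3 / 25) * L) := by
    have := Real.add_one_le_exp ((3 / 25) * L)
    linarith
  have h2 : (3 / 25) * L ≤ -(a * L) + L := by
    have : a * L ≤ (22 / 25) * L := mul_le_mul_of_nonneg_right ha hL.le
    linarith
  have h3 : Real.exp ((3 / 25) * L) ≤ Real.exp (-(a * L) + L) := Real.exp_le_exp.2 h2
  have h4 : (25 / 3) * Real.exp (-(a * L)) * Real.exp L = (25 / 3) * Real.exp (-(a * L) + L) := by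
    rw [Real.exp_add]
    ring
  rw [h4]
  linarith

/-- The exponent in the top range. -/
lemma tops_X {L g : ℝ} (hL : 1000 ≤ L) (hg0 : 0 ≤ g) (hg : g ≤ (3 / 25) * L) :
    (16 / 5) * (g + 3) * Real.log L / (L - g - 2) ≤ (9 / 20) * Real.log L := by
  have hd : 0 < L - g - 2 := by linarith
  have hlog : 0 ≤ Real.log L := Real.log_nonneg (by linarith)
  rw [div_le_iff₀ hd]
  have h1 : (16 / 5) * (g + 3) ≤ (9 / 20) * (L - g - 2) := by linarith
  have h2 := mul_le_mul_of_nonneg_right h1 hlog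
  calc (16 / 5) * (g + 3) * Real.log L ≤ (9 / 20) * (L - g - 2) * Real.log L := h2
    _ = _ := by ring

/-- `1000 D^2 ≤ n` in the top range. -/
lemma D_sq_le {x g D N : ℝ} (hx : 1000 ≤ x) (hD : D = Real.exp g) (hN : N = Real.exp x)
    (hg : g ≤ (3 / 25) * x) : 1000 * D ^ 2 ≤ N := by
  have h10 : (1000 : ℝ) ≤ Real.exp 10 := by
    have h1 : (2 : ℝ) ≤ Real.exp 1 := by
      have := Real.add_one_le_exp (1 : ℝ)
      linarith
    have h2 : Real.exp 10 = Real.exp 1 ^ 10 := by
      rw [← Real.exp_nat_mul]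
      norm_num
    rw [h2]
    calc (1000 : ℝ) ≤ 2 ^ 10 := by norm_num
      _ ≤ _ := pow_le_pow_left₀ (by norm_num) h1 10
  have h3 : Real.exp 10 ≤ Real.exp ((19 / 25) * x) := Real.exp_le_exp.2 (by linarith)
  have h4 : D ^ 2 ≤ Real.exp ((6 / 25) * x) := by
    rw [hD, ← Real.exp_nat_mul]
    apply Real.exp_le_exp.2
    push_cast
    linarith
  rw [hN]
  calc 1000 * D ^ 2 ≤ Real.exp ((19 / 25) * x) * Real.exp ((6 / 25) * x) :=
        mul_le_mul (h10.trans h3) h4 (by positivity) (Real.exp_pos _).le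
    _ = Real.exp x := by
        rw [← Real.exp_add]
        congr 1
        ring

/-- The top range `a > 22 / 25`. -/
lemma away_top {n : ℕ} {V : Type} [Fintype V] {H : SimpleGraph V} {x a P Y Cw Cx C : ℝ}
    (hn2 : 2 ≤ n) (hV : Fintype.card V ≤ n) (hH : H ≠ ⊥) (hn0 : (0 : ℝ) < n)
    (hx : x = Real.log n) (hx1000 : 1000 ≤ x) (hP : P = max (pE n H) (1 / (n : ℝ)))
    (hP0 : 0 < P) (hPexp : P = Real.exp (-(a * x))) (hN : (n : ℝ) = Real.exp x)
    (hY : Y = x ^ ((9 : ℝ) / 20)) (ha1 : a ≤ 1) (ha : 22 / 25 < a)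
    (hCw : 0 < Cw) (hCx : 0 < Cx) (hC1 : Cw ≤ C) (hC2 : 2 * Cx ≤ C)
    (hw : (n : ℝ) * pE n H ≤ x →
      pTilde n H ≤ Cw * P * x ^ ((3 : ℝ) / 10) ∧ pc n H ≤ Cw * P * x ^ ((13 : ℝ) / 10))
    (htop : 1 ≤ (n : ℝ) * pE n H → 1000 * ((n : ℝ) * pE n H) ^ 2 ≤ n →
      pTilde n H ≤ Cx * pE n H *
          (Real.exp (Vale.Agent.Lib.P064.xExpo n (pE n H)) + x / ((n : ℝ) * pE n H)) ∧
      pc n H ≤ Cx * pE n H * x *
          (Real.exp (Vale.Agent.Lib.P064.xExpo n (pE n H)) + x / ((n : ℝ) * pE n H))) :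
    pTilde n H ≤ C * P * Y ∧ pc n H ≤ C * P * (x * Y) := by
  have hx0 : 0 < x := by linarith
  have hx1 : 1 ≤ x := by linarith
  have hY1 : 1 ≤ Y := by
    rw [hY]
    exact Real.one_le_rpow hx1 (by norm_num)
  have hY0 : 0 < Y := by linarith
  have hC0 : 0 < C := by linarith
  by_cases hD : (n : ℝ) * pE n H ≤ x
  · obtain ⟨h1, h2⟩ := hw hD
    have h3 : x ^ ((3 : ℝ) / 10) ≤ Y := by
      rw [hY]
      exact Real.rpow_le_rpow_of_exponent_le hx1 (by norm_num)
    have h4 : x ^ ((13 : ℝ) / 10) ≤ x * Y := by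
      rw [hY, ← Real.rpow_one_add' hx0.le (by norm_num)]
      exact Real.rpow_le_rpow_of_exponent_le hx1 (by norm_num)
    constructor
    · calc pTilde n H ≤ Cw * P * x ^ ((3 : ℝ) / 10) := h1
        _ ≤ C * P * Y := mul_le_mul (mul_le_mul_of_nonneg_right hC1 hP0.le) h3 (by positivity)
            (by positivity)
    · calc pc n H ≤ Cw * P * x ^ ((13 : ℝ) / 10) := h2
        _ ≤ C * P * (x * Y) := mul_le_mul (mul_le_mul_of_nonneg_right hC1 hP0.le) h4 (by positivity)
            (by positivity)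
  · push Not at hD
    have hE1 : 1 / (n : ℝ) ≤ pE n H := by
      rw [div_le_iff₀ hn0]
      nlinarith
    have hPE : P = pE n H := by
      rw [hP]
      exact max_eq_left hE1
    rw [← hPE] at hD htop
    obtain ⟨g, hg⟩ : ∃ g, g = x - a * x := ⟨_, rfl⟩
    have hDexp : (n : ℝ) * P = Real.exp g := by
      rw [hN, hPexp, ← Real.exp_add, hg]
      try (congr 1; try ring)
    have hlogD : Real.log ((n : ℝ) * P) = g := by
      rw [hDexp, Real.log_exp]
    have hg0 : 0 ≤ g := by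
      rw [hg]
      nlinarith
    have hgle : g ≤ (3 / 25) * x := by
      rw [hg]
      nlinarith
    have hD1 : 1 ≤ (n : ℝ) * P := by linarith
    have hsq : 1000 * ((n : ℝ) * P) ^ 2 ≤ n := D_sq_le hx1000 hDexp hN hgle
    obtain ⟨h1, h2⟩ := htop hD1 hsq
    have hX : Real.exp (Vale.Agent.Lib.P064.xExpo n P) ≤ Y := by
      have h3 : Vale.Agent.Lib.P064.xExpo n P ≤ (9 / 20) * Real.log x := by
        unfold Vale.Agent.Lib.P064.xExpo
        rw [hlogD, ← hx]
        exact tops_X hx1000 hg0 hgle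
      rw [hY, Real.rpow_def_of_pos hx0]
      apply Real.exp_le_exp.2
      linarith
    have hdiv : x / ((n : ℝ) * P) ≤ 1 := by
      rw [div_le_one (by linarith)]
      exact hD.le
    have hbr : Real.exp (Vale.Agent.Lib.P064.xExpo n P) + x / ((n : ℝ) * P) ≤ 2 * Y := by linarith
    have hbr0 : 0 ≤ Real.exp (Vale.Agent.Lib.P064.xExpo n P) + x / ((n : ℝ) * P) := by positivity
    constructor
    · calc pTilde n H ≤ Cx * P * (Real.exp (Vale.Agent.Lib.P064.xExpo n P) + x / ((n : ℝ) * P)) := h1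
        _ ≤ Cx * P * (2 * Y) := mul_le_mul_of_nonneg_left hbr (by positivity)
        _ = (2 * Cx) * P * Y := by ring
        _ ≤ C * P * Y := by
            apply mul_le_mul_of_nonneg_right _ hY0.le
            exact mul_le_mul_of_nonneg_right hC2 hP0.le
    · calc pc n H ≤ Cx * P * x * (Real.exp (Vale.Agent.Lib.P064.xExpo n P) + x / ((n : ℝ) * P)) := h2
        _ ≤ Cx * P * x * (2 * Y) := mul_le_mul_of_nonneg_left hbr (by positivity)
        _ = (2 * Cx) * P * (x * Y) := by ring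
        _ ≤ C * P * (x * Y) := by
            apply mul_le_mul_of_nonneg_right _ (by positivity)
            exact mul_le_mul_of_nonneg_right hC2 hP0.le

/-- The bottom range `a ≤ 9 / 20`: the sharp bound. -/
lemma away_bottom {n : ℕ} {V : Type} [Fintype V] {H : SimpleGraph V} {x a P Y Cs C : ℝ}
    (hn0 : (1 : ℝ) < n) (hx : x = Real.log n) (hx1 : 1 ≤ x)
    (hP : P = max (pE n H) (1 / (n : ℝ))) (hP0 : 0 < P) (hE0 : 0 < pE n H)
    (ha : a = Real.log (1 / P) / x) (hY : Y = x ^ ((9 : ℝ) / 20)) (ha9 : a ≤ 9 / 20)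
    (hCs : 0 < Cs) (hC : 2 * Cs ≤ C)
    (h1 : pTilde n H ≤ Cs * pE n H * (1 + x) ^ (min 1 (Real.log (1 / pE n H) / x)))
    (h2 : pc n H ≤ Cs * pE n H * x * (1 + x) ^ (min 1 (Real.log (1 / pE n H) / x))) :
    pTilde n H ≤ C * P * Y ∧ pc n H ≤ C * P * (x * Y) := by
  have hx0 : 0 < x := by linarith
  have hn00 : (0 : ℝ) < n := by linarith
  have hY0 : 0 < Y := by
    rw [hY]
    positivity
  have hPE : P = pE n H := by
    by_contra hne
    have h3 : P = 1 / (n : ℝ) := by
      rw [hP] at hne ⊢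
      rcases max_cases (pE n H) (1 / (n : ℝ)) with ⟨h4, _⟩ | ⟨h4, _⟩
      · exact absurd h4 hne
      · exact h4
    have h5 : Real.log (1 / P) = x := by
      rw [h3, one_div, one_div, inv_inv, hx]
    rw [h5, div_self hx0.ne'] at ha
    rw [ha] at ha9
    norm_num at ha9
  rw [← hPE, ← ha] at h1 h2
  have hpow : (1 + x) ^ (min 1 a) ≤ 2 * Y := by
    have h3 : min 1 a ≤ (9 : ℝ) / 20 := (min_le_right _ _).trans ha9
    calc (1 + x) ^ (min 1 a) ≤ (1 + x) ^ ((9 : ℝ) / 20) :=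
          Real.rpow_le_rpow_of_exponent_le (by linarith) h3
      _ ≤ (2 * x) ^ ((9 : ℝ) / 20) := Real.rpow_le_rpow (by linarith) (by linarith) (by norm_num)
      _ = (2 : ℝ) ^ ((9 : ℝ) / 20) * Y := by
          rw [hY, Real.mul_rpow (by norm_num) hx0.le]
      _ ≤ 2 * Y := by
          apply mul_le_mul_of_nonneg_right _ hY0.le
          calc (2 : ℝ) ^ ((9 : ℝ) / 20) ≤ (2 : ℝ) ^ (1 : ℝ) :=
                Real.rpow_le_rpow_of_exponent_le (by norm_num) (by norm_num)
            _ = 2 := Real.rpow_one _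
  rw [← hPE] at *
  constructor
  · calc pTilde n H ≤ Cs * P * (1 + x) ^ (min 1 a) := h1
      _ ≤ Cs * P * (2 * Y) := mul_le_mul_of_nonneg_left hpow (by positivity)
      _ = (2 * Cs) * P * Y := by ring
      _ ≤ C * P * Y := by
          apply mul_le_mul_of_nonneg_right _ hY0.le
          exact mul_le_mul_of_nonneg_right hC hP0.le
  · calc pc n H ≤ Cs * P * x * (1 + x) ^ (min 1 a) := h2
      _ ≤ Cs * P * x * (2 * Y) := mul_le_mul_of_nonneg_left hpow (by positivity)
      _ = (2 * Cs) * P * (x * Y) := by ring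
      _ ≤ C * P * (x * Y) := by
          apply mul_le_mul_of_nonneg_right _ (by positivity)
          exact mul_le_mul_of_nonneg_right hC hP0.le

/-- **Outside the window around `n p_E^2 = 1` the exponent is below one half.** With
`P = max (p_E, 1 / n)`, `a = log (1 / P) / log n`: if `|2 a - 1| ≥ δ` then
`p̃_E ≤ C_δ P (log n)^(9/20)`, `p_c ≤ C_δ P (log n)^(29/20)`. -/
theorem away_half (δ : ℝ) (hδ : 0 < δ) (hδ1 : δ ≤ 1) :
    ∃ C : ℝ, 0 < C ∧ ∀ n : ℕ, 3 ≤ n → ∀ (V : Type) [Fintype V] (H : SimpleGraph V),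
      Fintype.card V ≤ n → H ≠ ⊥ →
      ∀ a : ℝ, a = Real.log (1 / max (pE n H) (1 / (n : ℝ))) / Real.log n → δ ≤ |2 * a - 1| →
      pTilde n H ≤ C * max (pE n H) (1 / (n : ℝ)) * (Real.log n) ^ ((9 : ℝ) / 20) ∧
      pc n H ≤ C * max (pE n H) (1 / (n : ℝ)) * (Real.log n) ^ ((29 : ℝ) / 20) := by
  obtain ⟨δ', hδ'⟩ : ∃ δ' : ℝ, δ' = min δ (7 / 20) := ⟨_, rfl⟩
  have hδ'0 : 0 < δ' := by rw [hδ']; exact lt_min hδ (by norm_num)
  have hδ'1 : δ' ≤ δ := by rw [hδ']; exact min_le_left _ _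
  have hδ'2 : δ' ≤ 7 / 20 := by rw [hδ']; exact min_le_right _ _
  obtain ⟨CV, hCV, hthV⟩ := thresholds_V δ' (1 / 100) hδ'0 (by linarith) (by norm_num)
  obtain ⟨Cw, hCw, hthW⟩ := Vale.Agent.Lib.P064W.w_thresholds
  obtain ⟨Cx, hCx, hthX⟩ := Vale.Agent.Lib.P064.x_thresholds
  obtain ⟨Cu, hCu, hunif⟩ := thresholds_uniform (1 / 2) (by norm_num)
  obtain ⟨Cs1, hCs1, hs1⟩ := pTilde_le_pE_sharp
  obtain ⟨Cs2, hCs2, hs2⟩ := pc_le_pE_sharp
  obtain ⟨C, hC⟩ : ∃ C : ℝ, C = 1000 * Cu + 2 * (Cs1 + Cs2) + 10 * CV + Cw + 2 * Cx + 1 := ⟨_, rfl⟩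
  have hC0 : 0 < C := by rw [hC]; positivity
  refine ⟨C, hC0, ?_⟩
  intro n hn V _ H hV hH a ha hsep
  have hn2 : 2 ≤ n := by omega
  have hnR : (3 : ℝ) ≤ n := by exact_mod_cast hn
  have hn0 : (0 : ℝ) < n := by linarith
  obtain ⟨x, hx⟩ : ∃ x, x = Real.log n := ⟨_, rfl⟩
  have hx1 : 1 ≤ x := by
    rw [hx, Real.le_log_iff_exp_le hn0]
    have := Real.exp_one_lt_d9
    linarith
  have hx0 : 0 < x := by linarith
  have hE0 := pE_pos hn2 hV hH
  obtain ⟨P, hP⟩ : ∃ P, P = max (pE n H) (1 / (n : ℝ)) := ⟨_, rfl⟩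
  have hP0 : 0 < P := by rw [hP]; exact lt_max_of_lt_left hE0
  have hPn : 1 / (n : ℝ) ≤ P := by rw [hP]; exact le_max_right _ _
  have hPE' : pE n H ≤ P := by rw [hP]; exact le_max_left _ _
  have hV' := hthV n hn V H hV hH a ha
  have hW' := hthW n V H hn2 hV hH
  have hX' := hthX n V H hn2 hV hH
  have hu := hunif n hn V H hV hH
  have hs1' := hs1 n hn2 V H hV hH
  have hs2' := hs2 n hn2 V H hV hH
  rw [← hx] at ha hV' hW' hX' hu hs1' hs2' ⊢
  rw [← hP] at ha hV' hW' hu ⊢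
  have hax : a * x = Real.log (1 / P) := by
    rw [ha]
    field_simp
  have hPexp : P = Real.exp (-(a * x)) := by
    rw [hax, one_div, Real.log_inv, neg_neg, Real.exp_log hP0]
  have hN : (n : ℝ) = Real.exp x := by
    rw [hx, Real.exp_log hn0]
  have ha1 : a ≤ 1 := by
    rw [ha, div_le_one hx0, hx]
    apply Real.log_le_log (by positivity)
    rw [div_le_iff₀ hP0]
    rw [div_le_iff₀ hn0] at hPn
    linarith
  obtain ⟨Y, hY⟩ : ∃ Y, Y = x ^ ((9 : ℝ) / 20) := ⟨_, rfl⟩
  have hY1 : 1 ≤ Y := by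
    rw [hY]
    exact Real.one_le_rpow hx1 (by norm_num)
  have hY0 : 0 < Y := by linarith
  have hsplit : x ^ ((29 : ℝ) / 20) = x * Y := by
    rw [hY, show (29 : ℝ) / 20 = 1 + 9 / 20 by norm_num, Real.rpow_add hx0, Real.rpow_one]
  rw [hsplit, ← hY]
  have hCu' : 1000 * Cu ≤ C := by
    rw [hC]
    have : 0 ≤ 2 * (Cs1 + Cs2) + 10 * CV + Cw + 2 * Cx + 1 := by positivity
    linarith
  have hCs' : 2 * (Cs1 + Cs2) ≤ C := by
    rw [hC]
    have : 0 ≤ 1000 * Cu + 10 * CV + Cw + 2 * Cx + 1 := by positivity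
    linarith
  have hCV' : 10 * CV ≤ C := by
    rw [hC]
    have : 0 ≤ 1000 * Cu + 2 * (Cs1 + Cs2) + Cw + 2 * Cx + 1 := by positivity
    linarith
  have hCw' : Cw ≤ C := by
    rw [hC]
    have : 0 ≤ 1000 * Cu + 2 * (Cs1 + Cs2) + 10 * CV + 2 * Cx + 1 := by positivity
    linarith
  have hCx' : 2 * Cx ≤ C := by
    rw [hC]
    have : 0 ≤ 1000 * Cu + 2 * (Cs1 + Cs2) + 10 * CV + Cw + 1 := by positivity
    linarith
  by_cases hsmall : x < 1000
  · -- small `n`
    obtain ⟨hu1, hu2⟩ := hu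
    have hexp1 : x ^ ((1 : ℝ) / 2 + 1 / 2) = x := by
      rw [show (1 : ℝ) / 2 + 1 / 2 = 1 by norm_num, Real.rpow_one]
    have hexp2 : x ^ ((3 : ℝ) / 2 + 1 / 2) = x * x := by
      rw [show (3 : ℝ) / 2 + 1 / 2 = 2 by norm_num, Real.rpow_two]
      ring
    rw [hexp1] at hu1
    rw [hexp2] at hu2
    have hCP : 0 ≤ C * P := by positivity
    constructor
    · calc pTilde n H ≤ Cu * P * x := hu1
        _ ≤ Cu * P * 1000 := mul_le_mul_of_nonneg_left hsmall.le (by positivity)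
        _ = (1000 * Cu) * P * 1 := by ring
        _ ≤ C * P * Y := mul_le_mul (mul_le_mul_of_nonneg_right hCu' hP0.le) hY1 (by norm_num) hCP
    · calc pc n H ≤ Cu * P * (x * x) := hu2
        _ ≤ Cu * P * (1000 * x) := by
            apply mul_le_mul_of_nonneg_left _ (by positivity)
            exact mul_le_mul_of_nonneg_right hsmall.le hx0.le
        _ = (1000 * Cu) * P * (x * 1) := by ring
        _ ≤ C * P * (x * Y) := by
            apply mul_le_mul (mul_le_mul_of_nonneg_right hCu' hP0.le) _ (by positivity) hCP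
            exact mul_le_mul_of_nonneg_left hY1 hx0.le
  · push Not at hsmall
    by_cases ha9 : a ≤ 9 / 20
    · refine away_bottom (by linarith) hx hx1 hP hP0 hE0 ha hY ha9
        (Cs := Cs1 + Cs2) (by positivity) hCs' ?_ ?_
      · refine hs1'.trans ?_
        apply mul_le_mul_of_nonneg_right _ (by positivity)
        apply mul_le_mul_of_nonneg_right _ hE0.le
        linarith
      · refine hs2'.trans ?_
        apply mul_le_mul_of_nonneg_right _ (by positivity)
        apply mul_le_mul_of_nonneg_right _ hx0.le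
        apply mul_le_mul_of_nonneg_right _ hE0.le
        linarith
    · push Not at ha9
      by_cases ha22 : a ≤ 22 / 25
      · -- the middle range
        have hsepd : ∀ d : ℕ, 2 ≤ d → δ' ≤ |(d : ℝ) * a - 1| := by
          intro d hd
          by_cases hd2 : d = 2
          · subst hd2
            have : ((2 : ℕ) : ℝ) = 2 := by norm_num
            rw [this]
            linarith
          · have hd3 : (3 : ℝ) ≤ (d : ℝ) := by
              have : 3 ≤ d := by omega
              exact_mod_cast this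
            have h1 : (3 : ℝ) * (9 / 20) ≤ (d : ℝ) * a :=
              mul_le_mul hd3 ha9.le (by norm_num) (by linarith)
            refine le_trans ?_ (le_abs_self _)
            linarith
        obtain ⟨h1, h2⟩ := hV' (by linarith) hsepd
        have hpow : x ^ (a / 2 + 1 / 100) ≤ Y := by
          rw [hY]
          apply Real.rpow_le_rpow_of_exponent_le hx1
          linarith
        have hpend : x / (n : ℝ) ≤ (25 / 3) * P := pend_le hN hPexp hx0 ha22
        have hbr : P * x ^ (a / 2 + 1 / 100) + x / (n : ℝ) ≤ 10 * (P * Y) := by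
          have h3 : P * x ^ (a / 2 + 1 / 100) ≤ P * Y := mul_le_mul_of_nonneg_left hpow hP0.le
          have h4 : P ≤ P * Y := by nlinarith
          linarith
        constructor
        · calc pTilde n H ≤ CV * (P * x ^ (a / 2 + 1 / 100) + x / (n : ℝ)) := h1
            _ ≤ CV * (10 * (P * Y)) := mul_le_mul_of_nonneg_left hbr hCV.le
            _ = (10 * CV) * P * Y := by ring
            _ ≤ C * P * Y := by
                apply mul_le_mul_of_nonneg_right _ hY0.le
                exact mul_le_mul_of_nonneg_right hCV' hP0.le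
        · calc pc n H ≤ CV * x * (P * x ^ (a / 2 + 1 / 100) + x / (n : ℝ)) := h2
            _ ≤ CV * x * (10 * (P * Y)) := mul_le_mul_of_nonneg_left hbr (by positivity)
            _ = (10 * CV) * P * (x * Y) := by ring
            _ ≤ C * P * (x * Y) := by
                apply mul_le_mul_of_nonneg_right _ (by positivity)
                exact mul_le_mul_of_nonneg_right hCV' hP0.le
      · push Not at ha22
        exact away_top hn2 hV hH hn0 hx hsmall hP hP0 hPexp hN hY ha1 ha22 hCw hCx hCw' hCx' hW' hX'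

end Vale.Agent.Lib.P064M
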