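import Vale.Agent.Lib.P064M.ParV

/-!
Part B4: case C of one block, through the maximal matching.
-/

open Finset

namespace Vale.Agent.Lib.P064M

open Vale.Agent.Lib.P064 Vale.Agent.Lib.P064E Vale.Agent.Lib.P064U Vale.Agent.Lib.P064T
open scoped Classical

variable {V α : Type} [Fintype V] [Fintype α] {F : SimpleGraph α} {H : SimpleGraph V} {n : ℕ}
  {q l lam : ℝ} {K C : Finset α} {d₀ : ℕ} {c₀ : ℝ}

/-- Case C of the blocks: `t ≤ |att| l`, `m < b₁`, `x < m l`. As `block_case_C` of `P064T.BlockC`: `all_union` and `num_edges_C` give `2 N ≤ m^2 R^2`. Then `exists_maxMatch` on `C`,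
`card_restrictions_singles` (note `att F K C ⊆ K \ C`), `card_restrictions_le` and `card_image_sets_pow` on `vs M`, and `num_case_CV` with `hpar.RE` via `x_eq_exp`. -/
theorem block_case_CV (hG : GoodDensity n q H) (hs : Std n q l lam) (hb : MinBlock F l lam K C)
    (h2 : 2 ≤ C.card) (hcod : CodPar l lam d₀ c₀) (hdeg : ∀ y ∈ C, d₀ ≤ (K.filter (F.Adj y)).card)
    {b₁ : ℕ} {R A T E₁ Λ : ℝ} (hpar : BlockParV n q l lam b₁ R A T E₁ Λ) (hc₀ : c₀ ≤ R)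
    (hmb₁ : (tch F K C).card < b₁)
    (S 𝓜 : Finset (α → V)) (hsub : 𝓜 ⊆ S) (h𝓜 : 𝓜.Nonempty) (hemb : ∀ φ ∈ S, IsEmb F H φ)
    (hag : ∀ φ ∈ S, ∀ φ' ∈ S, ∀ x ∈ K \ C, φ x = φ' x)
    (hdisj : ∀ φ ∈ 𝓜, ∀ φ' ∈ 𝓜, φ ≠ φ' → ∀ x ∈ C, ∀ y ∈ C, φ x ≠ φ' y)
    (hcov : ∀ φ ∈ S, ∃ x ∈ C, ∃ φ' ∈ 𝓜, ∃ y ∈ C, φ x = φ' y)
    (ht : (𝓜.card : ℝ) ≤ ((att F K C).card : ℝ) * l)
    (hxsmall : (n : ℝ) ^ C.card * q ^ (tch F K C).card < ((tch F K C).card : ℝ) * l) :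
    ((S.image (proj C)).card : ℝ) ≤
      ((n : ℝ) ^ C.card * q ^ (tch F K C).card) * Λ ^ (tch F K C).card := by
  have hl1 : (1 : ℝ) ≤ l := hs.l1
  have hl0 : (0 : ℝ) ≤ l := by linarith
  have hCK : C ⊆ K := hb.sub
  have hall := all_union hG hs hb h2 S 𝓜 hsub hemb hag hdisj hcov
  set U : Finset (Sym2 V) := S.biUnion (tchIm F K C) with hU
  have hinj : ∀ φ ∈ S, Function.Injective φ := fun φ hφ => (hemb φ hφ).1
  obtain ⟨M, hM⟩ := exists_maxMatch F C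
  have hMv : IsMatching F (vs M) M := IsMaxMatch.isMatching_vs hM
  have hMC : IsMatching F C M := ⟨hM.sub, hM.disj⟩
  have hU1 : ∀ φ ∈ S, ∀ e ∈ M, Sym2.map φ e ∈ U := by
    intro φ hφ e he
    exact Finset.mem_biUnion.2 ⟨φ, hφ, Finset.mem_image_of_mem _ (hMC.subset_tch hCK he)⟩
  have hW : ∀ φ ∈ S, ∀ w ∈ vs M \ vs M, φ w ∈ vs U := by
    intro φ _ w hw
    simp at hw
  have h1 := card_image_sets_pow hMv S U hinj hU1 hW
  rw [pieces_vs] at h1
  have h3 := card_restrictions_le S (vs M) hinj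
  have hag' : ∀ φ ∈ S, ∀ φ' ∈ S, ∀ x ∈ att F K C, φ x = φ' x := by
    intro φ hφ φ' hφ' x hx
    obtain ⟨hxK, hxC, _⟩ := mem_att.1 hx
    exact hag φ hφ φ' hφ' x (Finset.mem_sdiff.2 ⟨hxK, hxC⟩)
  have hsing := card_restrictions_singles hG hs hcod hCK hM hdeg S hemb hag'
  -- numerics
  set m : ℕ := (tch F K C).card with hm
  set b : ℕ := C.card with hbdef
  have hbm : b ≤ m := card_le_tch hs hb h2
  have hm1 : 1 ≤ m := by omega
  have hmR : (1 : ℝ) ≤ (m : ℝ) := by exact_mod_cast hm1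
  have hx0 : (0 : ℝ) ≤ (n : ℝ) ^ b * q ^ m := by
    have := hs.q0
    positivity
  have hxm := one_le_x_exp hs hb
  have hattm : ((att F K C).card : ℝ) ≤ (m : ℝ) := by exact_mod_cast att_card_le hCK
  have htm : (𝓜.card : ℝ) ≤ (m : ℝ) * l := ht.trans (mul_le_mul_of_nonneg_right hattm hl0)
  have hval : Real.exp ((b : ℝ) * l - (m : ℝ) * lam) < (m : ℝ) * l := by
    rw [← x_eq_exp hs b m]
    exact hxsmall
  have hml0 : 0 < (m : ℝ) * l := by positivity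
  have hval' : (b : ℝ) * l - (m : ℝ) * lam < Real.log ((m : ℝ) * l) :=
    (Real.lt_log_iff_exp_lt hml0).2 hval
  have hN := num_edges_C (m := m) (l := l) (R := R) (t := (𝓜.card : ℝ))
    (a := ((att F K C).card : ℝ)) (val := (b : ℝ) * l - (m : ℝ) * lam) (N := (U.card : ℝ))
    hm1 hl1 (Nat.cast_nonneg _) hattm (Nat.cast_nonneg _) htm hval hpar.B1 hall
  have hbcard : 2 * M.card + (C \ vs M).card = b := hMC.card_eq.symm
  have hRE := hpar.RE b m hm1 hmb₁ hval'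
  have hmain := num_case_CV (m := m) (b := b) (b₁ := b₁) (g := M.card) (w := (C \ vs M).card)
    (x := (n : ℝ) ^ b * q ^ m) (N := (U.card : ℝ)) (R := R) (A := A) (T := T) (E₁ := E₁) (c₀ := c₀)
    (Λ := Λ) hm1 hbm hx0 hxm hpar.R1 hpar.A1 hpar.T1 hpar.E₁1 hmb₁ (Nat.cast_nonneg _) hN hbcard
    hcod.one hc₀ hRE hpar.Λ1
  refine le_trans ?_ hmain
  have hvscard : (vs M).card = 2 * M.card := hMv.card_vs
  rw [hvscard] at h3
  have h4 : ((S.image (proj (vs M))).card : ℝ) ≤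
      (2 * (U.card : ℝ)) ^ M.card * ((2 * M.card : ℕ) : ℝ) ^ (2 * M.card) := by
    have h5 : (S.image (proj (vs M))).card ≤ (2 * U.card) ^ M.card * (2 * M.card) ^ (2 * M.card) :=
      h3.trans (Nat.mul_le_mul_right _ h1)
    have h6 : ((S.image (proj (vs M))).card : ℝ) ≤
        (((2 * U.card) ^ M.card * (2 * M.card) ^ (2 * M.card) : ℕ) : ℝ) := by
      exact_mod_cast h5
    refine h6.trans (le_of_eq ?_)
    push_cast
    ring
  have hc₀0 : (0 : ℝ) ≤ c₀ ^ (C \ vs M).card := by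
    have := hcod.one
    positivity
  calc ((S.image (proj C)).card : ℝ) ≤ c₀ ^ (C \ vs M).card * (S.image (proj (vs M))).card := hsing
    _ ≤ c₀ ^ (C \ vs M).card *
        ((2 * (U.card : ℝ)) ^ M.card * ((2 * M.card : ℕ) : ℝ) ^ (2 * M.card)) :=
        mul_le_mul_of_nonneg_left h4 hc₀0
    _ = _ := by ring

end Vale.Agent.Lib.P064M
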