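import Vale.Agent.Lib.P064M.BlockTwoV
import Vale.Agent.Lib.P064M.BlockOneV

/-!
All blocks, vertex form.
-/

open Finset

namespace Vale.Agent.Lib.P064M

open Vale.Agent.Lib.P064 Vale.Agent.Lib.P064E Vale.Agent.Lib.P064U Vale.Agent.Lib.P064T
open scoped Classical

variable {V α : Type} [Fintype V] [Fintype α] {F : SimpleGraph α} {H : SimpleGraph V} {n : ℕ}
  {q l lam : ℝ} {K C : Finset α} {d₀ : ℕ} {c₀ : ℝ}

/-- In a block with at least two vertices every degree exceeds `l / lam`: `l < d (lam - 1) ≤ d lam` (`MinBlock.single_neg`), and `(tch F K {y}).card ≤ (K.filter (F.Adj y)).card`. -/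
lemma deg_ge (hs : Std n q l lam) (hb : MinBlock F l lam K C) (h2 : 2 ≤ C.card) {y : α} (hy : y ∈ C) :
    ⌊l / lam⌋₊ + 1 ≤ (K.filter (F.Adj y)).card := by
  have hlam : 0 < lam := by
    have := hs.lam1
    linarith
  have hl0 : 0 ≤ l / lam := div_nonneg (by have := hs.l1; linarith) hlam.le
  have h1 := hb.single_neg h2 hy
  have hd : ((tch F K {y}).card : ℝ) * (lam - 1) ≤ ((tch F K {y}).card : ℝ) * lam := by
    apply mul_le_mul_of_nonneg_left _ (Nat.cast_nonneg _)
    linarith
  have h3 : l / lam < ((tch F K {y}).card : ℝ) := by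
    rw [div_lt_iff₀ hlam]
    linarith
  have h4 : ⌊l / lam⌋₊ < (tch F K {y}).card := (Nat.floor_lt hl0).2 h3
  have hyK : ({y} : Finset α) ⊆ K := by
    intro z hz
    rw [Finset.mem_singleton] at hz
    rw [hz]
    exact hb.sub hy
  have h5 : (tch F K {y}).card ≤ (K.filter (F.Adj y)).card := by
    have hsub : tch F K {y} ⊆ (K.filter (F.Adj y)).image (fun w => s(y, w)) := by
      intro e he
      induction e using Sym2.ind with
      | _ u v =>
        obtain ⟨h6, h7, h8, h9⟩ := (mem_tch_pair hyK).1 he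
        rcases h9 with h9 | h9
        · rw [Finset.mem_singleton] at h9
          subst h9
          exact Finset.mem_image.2 ⟨v, Finset.mem_filter.2 ⟨h8, h6⟩, rfl⟩
        · rw [Finset.mem_singleton] at h9
          subst h9
          exact Finset.mem_image.2 ⟨u, Finset.mem_filter.2 ⟨h7, h6.symm⟩, Sym2.eq_swap⟩
    exact (Finset.card_le_card hsub).trans Finset.card_image_le
  omega

/-- All blocks. -/
theorem block_allV (hG : GoodDensity n q H) (hs : Std n q l lam) (hV : Fintype.card V ≤ n)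
    (hb : MinBlock F l lam K C) (hcod : CodPar l lam (⌊l / lam⌋₊ + 1) c₀)
    {b₁ : ℕ} {R A T E₁ Λ : ℝ} (hpar : BlockParV n q l lam b₁ R A T E₁ Λ) (hc₀ : c₀ ≤ R)
    (hRb : baseT l ≤ R ^ 2) (hRe : R ≤ Real.exp (scaleT l)) :
    BlockGoalT F H n q Λ K C := by
  by_cases h2 : 2 ≤ C.card
  · exact block_twoV hG hs hV hb h2 hcod (fun y hy => deg_ge hs hb h2 hy) hpar hc₀
      (level_topV hG hs hb h2 hcod (fun y hy => deg_ge hs hb h2 hy) hpar.R1 hc₀ hRb hRe)
  · have hpos : 0 < C.card := Finset.card_pos.2 hb.ne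
    exact block_oneV hG hs hV hb (by omega) hpar

end Vale.Agent.Lib.P064M
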