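import Vale.Agent.Lib.P064M.BlockCV

/-!
Part B5: a block with at least two vertices, vertex form.
-/

open Finset

namespace Vale.Agent.Lib.P064M

open Vale.Agent.Lib.P064 Vale.Agent.Lib.P064E Vale.Agent.Lib.P064U Vale.Agent.Lib.P064T
open scoped Classical

variable {V α : Type} [Fintype V] [Fintype α] {F : SimpleGraph α} {H : SimpleGraph V} {n : ℕ}
  {q l lam : ℝ} {K C : Finset α} {d₀ : ℕ} {c₀ : ℝ}

/-- A block with at least two vertices. As `block_two` of `P064T.BlockTwo`, with `overlap_boundV`; `R^(b-1) ≤ A^m` by `hpar.RA` and `MinBlock.sub_one_lt`. -/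
theorem block_twoV (hG : GoodDensity n q H) (hs : Std n q l lam) (hV : Fintype.card V ≤ n)
    (hb : MinBlock F l lam K C) (h2 : 2 ≤ C.card) (hcod : CodPar l lam d₀ c₀)
    (hdeg : ∀ y ∈ C, d₀ ≤ (K.filter (F.Adj y)).card)
    {b₁ : ℕ} {R A T E₁ Λ : ℝ} (hpar : BlockParV n q l lam b₁ R A T E₁ Λ) (hc₀ : c₀ ≤ R)
    (hlev : LevelBound F H l K C n R 19) :
    BlockGoalT F H n q Λ K C := by
  intro S hemb hag
  have hq0 := hs.q0
  have hl1 := hs.l1
  have hl0 : 0 ≤ l := by linarith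
  have hR1 := hpar.R1
  have hA1 := hpar.A1
  have hT1 := hpar.T1
  have hE₁ := hpar.E₁1
  have hA0 : 0 < A := by linarith
  have hbm : C.card ≤ (tch F K C).card := card_le_tch hs hb h2
  have hm1 : 1 ≤ (tch F K C).card := by omega
  have hx0 : 0 ≤ (n : ℝ) ^ C.card * q ^ (tch F K C).card := by positivity
  have hxm := one_le_x_exp hs hb
  have hb₁ := hpar.b₁1
  have hb₁R : (1 : ℝ) ≤ (b₁ : ℝ) ^ (2 * b₁) := by
    have : (1 : ℝ) ≤ b₁ := by exact_mod_cast hb₁
    exact one_le_pow₀ this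
  have hΛ' : Real.exp (19 + 4) * ((b₁ : ℝ) ^ (2 * b₁)) * E₁ * A * T ≤ Λ := hpar.Λ1
  have hΛ : Real.exp (19 + 4) * ((b₁ : ℝ) ^ (2 * b₁)) * A * T ≤ Λ := by
    refine le_trans ?_ hΛ'
    have h0 : 0 ≤ Real.exp (19 + 4) * ((b₁ : ℝ) ^ (2 * b₁)) * (A * T) := by positivity
    calc Real.exp (19 + 4) * ((b₁ : ℝ) ^ (2 * b₁)) * A * T
        = Real.exp (19 + 4) * ((b₁ : ℝ) ^ (2 * b₁)) * (A * T) := by ring
      _ ≤ Real.exp (19 + 4) * ((b₁ : ℝ) ^ (2 * b₁)) * (A * T) * E₁ :=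
          le_mul_of_one_le_right h0 hE₁
      _ = _ := by ring
  -- `R^(b-1) ≤ A^m`
  have hRA : R ^ (C.card - 1) ≤ A ^ (tch F K C).card := by
    apply hpar.RA
    have h3 := hb.sub_one_lt h2
    have h4 : ((C.card - 1 : ℕ) : ℝ) = (C.card : ℝ) - 1 := by
      rw [Nat.cast_sub (by omega), Nat.cast_one]
    rw [h4]
    have h5 : (0 : ℝ) ≤ ((tch F K C).card : ℝ) := Nat.cast_nonneg _
    nlinarith
  rcases S.eq_empty_or_nonempty with rfl | hS
  · have hΛ0 : 0 ≤ Λ := le_trans (by positivity) hΛ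
    simp only [Finset.image_empty, Finset.card_empty, Nat.cast_zero]
    positivity
  obtain ⟨𝓜, hsub, h𝓜, hdisj, hcov⟩ := exists_max_family hb.ne S hS
  have hK : ((S.image (proj K)).card : ℝ) ≤ ((S.image (proj C)).card : ℝ) := by
    exact_mod_cast card_image_proj_K_le hb.sub S hag
  have hN0 : (0 : ℝ) ≤ (C.card : ℝ) ^ 2 *
      (A ^ (tch F K C).card * Real.exp (19 * ((tch F K C).card : ℝ))) := by positivity
  have hov := card_le_sum_overlap (C := C) S 𝓜 hcov hN0 (fun φ₁ _ =>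
    overlap_boundV hG hs hV hb h2 hR1 hA1 (by norm_num) hRA hlev S hemb hag φ₁)
  have ht0 : (0 : ℝ) ≤ (𝓜.card : ℝ) := Nat.cast_nonneg _
  have hdich := family_dichotomy hG hs hb.sub hb.ne hm1 𝓜 h𝓜 (fun φ hφ => hemb φ (hsub hφ))
    (fun φ hφ φ' hφ' => hag φ (hsub hφ) φ' (hsub hφ')) hdisj
  have hcaseA : (𝓜.card : ℝ) ≤ Real.exp 2 * ((n : ℝ) ^ C.card * q ^ (tch F K C).card) →
      ((S.image (proj K)).card : ℝ) ≤
        ((n : ℝ) ^ C.card * q ^ (tch F K C).card) * Λ ^ (tch F K C).card := by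
    intro ht
    exact hK.trans (hov.trans (num_case_A hm1 hbm hx0 hA1 hT1 (by norm_num) hb₁ ht0 hΛ ht))
  rcases hdich with ht | ht
  · have hatt : ((att F K C).card : ℝ) ≤ ((tch F K C).card : ℝ) := by
      exact_mod_cast att_card_le hb.sub
    have ht' : (𝓜.card : ℝ) ≤ ((tch F K C).card : ℝ) * l :=
      ht.trans (mul_le_mul_of_nonneg_right hatt hl0)
    by_cases hmb : b₁ ≤ (tch F K C).card
    · exact hK.trans (hov.trans (num_case_B hm1 hbm hx0 hxm hA1 hT1 (by norm_num) hb₁ hmb hl0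
        hpar.lT ht0 hΛ ht'))
    · push Not at hmb
      by_cases hx : ((tch F K C).card : ℝ) * l ≤ (n : ℝ) ^ C.card * q ^ (tch F K C).card
      · apply hcaseA
        have he2 : (1 : ℝ) ≤ Real.exp 2 := Real.one_le_exp (by norm_num)
        nlinarith
      · push Not at hx
        exact hK.trans (block_case_CV hG hs hb h2 hcod hdeg hpar hc₀ hmb S 𝓜 hsub h𝓜 hemb hag
          hdisj hcov ht hx)
  · exact hcaseA ht

end Vale.Agent.Lib.P064M
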