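import Vale.Agent.Lib.P064T.Overlap

/-!
Part C1: vertices with many fixed neighbours have few images (density of `K_{d,c}`).
-/

open Finset

namespace Vale.Agent.Lib.P064M

open Vale.Agent.Lib.P064 Vale.Agent.Lib.P064E Vale.Agent.Lib.P064U Vale.Agent.Lib.P064T
open scoped Classical

variable {V α : Type} [Fintype V] [Fintype α] {F : SimpleGraph α} {H : SimpleGraph V} {n : ℕ}
  {q l lam : ℝ} {K C : Finset α} {d₀ : ℕ} {c₀ : ℝ}

/-- The numbers for vertices all of whose neighbours are fixed: `d₀ lam > l` and `c₀ (d₀ lam - l) ≥ d₀ l`. -/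
structure CodPar (l lam : ℝ) (d₀ : ℕ) (c₀ : ℝ) : Prop where
  d₀pos : 1 ≤ d₀
  pos : l < (d₀ : ℝ) * lam
  bound : (d₀ : ℝ) * l ≤ c₀ * ((d₀ : ℝ) * lam - l)
  one : 1 ≤ c₀

/-- `d₀` vertices have at most `c₀` common neighbours: the `d₀ |N|` edges lie on `d₀ + |N|` vertices, and `density_log`. -/
theorem common_nbrs_bound (hG : GoodDensity n q H) (hs : Std n q l lam) (hcod : CodPar l lam d₀ c₀)
    (A N : Finset V) (hA : A.card = d₀) (hadj : ∀ a ∈ A, ∀ w ∈ N, H.Adj a w) :
    (N.card : ℝ) ≤ c₀ := by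
  have hdisj : Disjoint A N := by
    rw [Finset.disjoint_left]
    intro a ha haN
    exact (H.loopless.1 a) (hadj a ha a haN)
  set T : Finset (Sym2 V) := (A ×ˢ N).image (fun p => s(p.1, p.2)) with hT
  have hinj : Set.InjOn (fun p : V × V => s(p.1, p.2)) ((A ×ˢ N : Finset (V × V)) : Set (V × V)) := by
    rintro ⟨a, b⟩ hab ⟨c, d⟩ hcd he
    have hab' := Finset.mem_product.1 (Finset.mem_coe.1 hab)
    have hcd' := Finset.mem_product.1 (Finset.mem_coe.1 hcd)
    simp only [Sym2.eq_iff] at he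
    rcases he with ⟨h1, h2⟩ | ⟨h1, h2⟩
    · simp_all
    · exfalso
      exact (Finset.disjoint_left.1 hdisj) hab'.1 (by simpa [h1] using hcd'.2)
  have hTcard : T.card = d₀ * N.card := by
    rw [hT, Finset.card_image_of_injOn hinj, Finset.card_product, hA]
  have hTedge : ∀ e ∈ T, e ∈ H.edgeSet := by
    intro e he
    obtain ⟨p, hp, rfl⟩ := Finset.mem_image.1 he
    have hp' := Finset.mem_product.1 hp
    exact hadj _ hp'.1 _ hp'.2
  have hvs : (vs T).card ≤ d₀ + N.card := by
    have hsub : vs T ⊆ A ∪ N := by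
      intro x hx
      obtain ⟨e, he, hxe⟩ := Finset.mem_biUnion.1 hx
      obtain ⟨p, hp, rfl⟩ := Finset.mem_image.1 he
      have hp' := Finset.mem_product.1 hp
      rw [Sym2.mem_toFinset, Sym2.mem_iff] at hxe
      rcases hxe with h | h
      · exact Finset.mem_union_left _ (by rw [h]; exact hp'.1)
      · exact Finset.mem_union_right _ (by rw [h]; exact hp'.2)
    calc (vs T).card ≤ (A ∪ N).card := Finset.card_le_card hsub
      _ ≤ A.card + N.card := Finset.card_union_le _ _
      _ = d₀ + N.card := by rw [hA]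
  have hdens := density_log hG hs T hTedge
  have hl : 0 ≤ l := by linarith [hs.l1]
  have h1 : ((d₀ * N.card : ℕ) : ℝ) * lam ≤ ((d₀ + N.card : ℕ) : ℝ) * l := by
    rw [hTcard] at hdens
    refine hdens.trans (mul_le_mul_of_nonneg_right ?_ hl)
    exact_mod_cast hvs
  push_cast at h1
  have hpos : 0 < (d₀ : ℝ) * lam - l := by linarith [hcod.pos]
  have h2 : (N.card : ℝ) * ((d₀ : ℝ) * lam - l) ≤ c₀ * ((d₀ : ℝ) * lam - l) := by
    have := hcod.bound
    nlinarith
  exact le_of_mul_le_mul_right h2 hpos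

/-- Adding one vertex `w` with `d₀` neighbours `A₀` that are determined by the restriction to `D`:
each fibre of `proj D` has at most `c₀` values of `φ w` (`common_nbrs_bound`, `φ` injective); `card_image_proj_step_real`. -/
theorem card_image_add_single (hG : GoodDensity n q H) (hs : Std n q l lam)
    (hcod : CodPar l lam d₀ c₀) {D : Finset α} (S : Finset (α → V))
    (hemb : ∀ φ ∈ S, IsEmb F H φ) {w : α} (A₀ : Finset α) (hA₀ : A₀.card = d₀)
    (hadj : ∀ u ∈ A₀, F.Adj u w)
    (hfix : ∀ φ ∈ S, ∀ φ' ∈ S, proj D φ = proj D φ' → ∀ u ∈ A₀, φ u = φ' u) :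
    ((S.image (proj (D ∪ {w}))).card : ℝ) ≤ c₀ * (S.image (proj D)).card := by
  have hc0 : 0 ≤ c₀ := by linarith [hcod.one]
  refine card_image_proj_step_real S Finset.subset_union_left hc0 ?_
  intro φ₀ hφ₀
  set Fib := S.filter (fun φ => proj D φ = proj D φ₀) with hFib
  set N : Finset V := Fib.image (fun φ => φ w) with hN
  have hNcard : (N.card : ℝ) ≤ c₀ := by
    refine common_nbrs_bound hG hs hcod (A₀.image φ₀) N ?_ ?_
    · rw [Finset.card_image_of_injective _ (hemb φ₀ hφ₀).1, hA₀]
    · intro a ha v hv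
      obtain ⟨u, hu, rfl⟩ := Finset.mem_image.1 ha
      obtain ⟨φ, hφ, rfl⟩ := Finset.mem_image.1 hv
      have hφ' := Finset.mem_filter.1 hφ
      have e : φ₀ u = φ u := (hfix φ hφ'.1 φ₀ hφ₀ hφ'.2 u hu).symm
      rw [e]
      exact (hemb φ hφ'.1).2 u w (hadj u hu)
  have hsub : Fib.image (proj (D ∪ {w})) ⊆
      N.image (fun v => fun x => if x = w then some v else proj D φ₀ x) := by
    intro ψ hψ
    obtain ⟨φ, hφ, rfl⟩ := Finset.mem_image.1 hψ
    have hφ' := Finset.mem_filter.1 hφ
    refine Finset.mem_image.2 ⟨φ w, Finset.mem_image_of_mem _ hφ, ?_⟩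
    funext x
    by_cases hx : x = w
    · subst hx
      simp [proj]
    · have hxe := congrFun hφ'.2 x
      rw [if_neg hx, ← hxe]
      simp [proj, hx]
  have h2 : (Fib.image (proj (D ∪ {w}))).card ≤ N.card :=
    (Finset.card_le_card hsub).trans Finset.card_image_le
  calc ((Fib.image (proj (D ∪ {w}))).card : ℝ) ≤ (N.card : ℝ) := by exact_mod_cast h2
    _ ≤ c₀ := hNcard

/-- From the matching to all of `Q`: induction over subsets of `W = Q \ vs M`, `W` is independent, so every neighbour in `K` of `w ∈ W`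
is in `vs M` or in `att F K Q`; choose `d₀` of them (`hdeg`), `card_image_add_single`. -/
theorem card_restrictions_singles (hG : GoodDensity n q H) (hs : Std n q l lam)
    (hcod : CodPar l lam d₀ c₀) {Q : Finset α} {M : Finset (Sym2 α)} (hQ : Q ⊆ K)
    (hM : IsMaxMatch F Q M) (hdeg : ∀ y ∈ Q, d₀ ≤ (K.filter (F.Adj y)).card)
    (S : Finset (α → V)) (hemb : ∀ φ ∈ S, IsEmb F H φ)
    (hag : ∀ φ ∈ S, ∀ φ' ∈ S, ∀ x ∈ att F K Q, φ x = φ' x) :
    ((S.image (proj Q)).card : ℝ) ≤ c₀ ^ (Q \ vs M).card * (S.image (proj (vs M))).card := by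
  have hc0 : 0 ≤ c₀ := by linarith [hcod.one]
  have hvsQ : vs M ⊆ Q := by
    intro x hx
    obtain ⟨e, he, hxe⟩ := Finset.mem_biUnion.1 hx
    have h1 := Finset.mem_filter.1 (hM.sub he)
    exact h1.2.2 x (Sym2.mem_toFinset.1 hxe)
  have key : ∀ X : Finset α, X ⊆ Q \ vs M →
      ((S.image (proj (vs M ∪ X))).card : ℝ) ≤ c₀ ^ X.card * (S.image (proj (vs M))).card := by
    intro X
    induction X using Finset.induction_on with
    | empty =>
      intro _
      simp
    | insert w X hw ih =>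
      intro hX
      have hwQ : w ∈ Q \ vs M := hX (Finset.mem_insert_self _ _)
      have hXsub : X ⊆ Q \ vs M := fun x hx => hX (Finset.mem_insert_of_mem hx)
      have hih := ih hXsub
      have hwQ' := Finset.mem_sdiff.1 hwQ
      obtain ⟨A₀, hA₀sub, hA₀card⟩ := Finset.exists_subset_card_eq (hdeg w hwQ'.1)
      have hstep := card_image_add_single (D := vs M ∪ X) (F := F) hG hs hcod S hemb (w := w) A₀
        hA₀card
        (fun u hu => (Finset.mem_filter.1 (hA₀sub hu)).2.symm)
        (by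
          intro φ hφ φ' hφ' hpr u hu
          have hu' := Finset.mem_filter.1 (hA₀sub hu)
          by_cases huv : u ∈ vs M
          · have := congrFun hpr u
            have hu2 : u ∈ vs M ∪ X := Finset.mem_union_left _ huv
            simpa [proj, hu2] using this
          · by_cases huQ : u ∈ Q
            · exfalso
              exact hM.indep w hwQ u (Finset.mem_sdiff.2 ⟨huQ, huv⟩) hu'.2
            · apply hag φ hφ φ' hφ'
              unfold att core
              refine Finset.mem_filter.2 ⟨Finset.mem_sdiff.2 ⟨hu'.1, huQ⟩, w, hwQ'.1, hu'.2⟩)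
      have e : vs M ∪ insert w X = (vs M ∪ X) ∪ {w} := by
        ext x
        simp only [Finset.mem_union, Finset.mem_insert, Finset.mem_singleton]
        tauto
      rw [e, Finset.card_insert_of_notMem hw, pow_succ]
      calc ((S.image (proj ((vs M ∪ X) ∪ {w}))).card : ℝ)
          ≤ c₀ * (S.image (proj (vs M ∪ X))).card := hstep
        _ ≤ c₀ * (c₀ ^ X.card * (S.image (proj (vs M))).card) :=
            mul_le_mul_of_nonneg_left hih hc0
        _ = _ := by ring
  have hfin := key (Q \ vs M) (Finset.Subset.refl _)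
  have e : vs M ∪ (Q \ vs M) = Q := Finset.union_sdiff_of_subset hvsQ
  rwa [e] at hfin

/-- A maximal matching is a perfect matching of its vertex set. -/
lemma IsMaxMatch.isMatching_vs {Q : Finset α} {M : Finset (Sym2 α)} (hM : IsMaxMatch F Q M) :
    IsMatching F (vs M) M := by
  refine ⟨?_, hM.disj⟩
  intro e he
  have h1 := Finset.mem_filter.1 (hM.sub he)
  refine Finset.mem_filter.2 ⟨Finset.mem_univ _, h1.2.1, ?_⟩
  intro x hx
  exact Finset.mem_biUnion.2 ⟨e, he, Sym2.mem_toFinset.2 hx⟩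

/-- `pieces (vs M) M = |M|`. -/
lemma pieces_vs (M : Finset (Sym2 α)) : pieces (vs M) M = M.card := by
  unfold pieces
  simp

end Vale.Agent.Lib.P064M
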