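import Vale.Agent.Lib.P064T.NumT

/-!
Part N: numeric parameters in vertex form.
-/

namespace Vale.Agent.Lib.P064M

open Vale.Agent.Lib.P064T

/-- The last conjunct of `exists_parV`. -/
lemma last_conj {b a c A' δ R l : ℝ} (hb₁pos : 0 < b) (ha0 : 0 ≤ a) (ha : Real.log b = a)
    (hc1 : 1 ≤ c) (hcdef : c = Real.log A' + 1) (hA'0 : 0 < A') (hδ1 : δ ≤ 1) (hR1 : 1 ≤ R)
    (hR : R ≤ A' * (1 + l) ^ ((1 + δ) / 2)) (hl : 1 ≤ l) :
    R ^ (Real.log (b * l) / l) ≤ Real.exp ((a + 2) * (c + 2)) := by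
  have hl00 : (0 : ℝ) < l := by linarith
  have hl0 : (0 : ℝ) < 1 + l := by linarith
  have hl1 : (1 : ℝ) ≤ 1 + l := by linarith
  have hR0 : 0 < R := by linarith
  have hs1 : 1 ≤ Real.sqrt l := Real.one_le_sqrt.2 hl
  have hs0 : 0 < Real.sqrt l := by linarith
  have hss : Real.sqrt l * Real.sqrt l = l := Real.mul_self_sqrt hl00.le
  have hlogl : Real.log l ≤ 2 * Real.sqrt l := by
    have h := Real.log_le_rpow_div hl00.le (show (0 : ℝ) < 1 / 2 by norm_num)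
    rw [← Real.sqrt_eq_rpow] at h
    linarith
  have hlog0 : 0 ≤ Real.log l := Real.log_nonneg hl
  have hlog1 : Real.log (1 + l) ≤ 1 + Real.log l := by
    have h2 : Real.log (1 + l) ≤ Real.log (2 * l) := Real.log_le_log hl0 (by linarith)
    rw [Real.log_mul (by norm_num) hl00.ne'] at h2
    have h3 : Real.log 2 ≤ 1 := by
      have := Real.log_two_lt_d9
      linarith
    linarith
  have hlogR : Real.log R ≤ c + 2 * Real.sqrt l := by
    have h1 : Real.log R ≤ Real.log (A' * (1 + l) ^ ((1 + δ) / 2)) :=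
      Real.log_le_log hR0 hR
    rw [Real.log_mul hA'0.ne' (by positivity), Real.log_rpow hl0] at h1
    have h2 : (1 + δ) / 2 * Real.log (1 + l) ≤ 1 * Real.log (1 + l) := by
      apply mul_le_mul_of_nonneg_right (by linarith) (Real.log_nonneg hl1)
    rw [hcdef]
    linarith
  have hlogR0 : 0 ≤ Real.log R := Real.log_nonneg hR1
  have hlogb : Real.log (b * l) = a + Real.log l := by
    rw [Real.log_mul hb₁pos.ne' hl00.ne', ha]
  rw [Real.rpow_def_of_pos hR0]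
  apply Real.exp_le_exp.2
  rw [hlogb]
  have hX : (a + Real.log l) / Real.sqrt l ≤ a + 2 := by
    rw [div_le_iff₀ hs0]
    have h1 : a * 1 ≤ a * Real.sqrt l := mul_le_mul_of_nonneg_left hs1 ha0
    have h2 : (a + 2) * Real.sqrt l = a * Real.sqrt l + 2 * Real.sqrt l := by ring
    rw [h2]
    linarith
  have hY : Real.log R / Real.sqrt l ≤ c + 2 := by
    rw [div_le_iff₀ hs0]
    have h1 : c * 1 ≤ c * Real.sqrt l := mul_le_mul_of_nonneg_left hs1 (by linarith)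
    have h2 : (c + 2) * Real.sqrt l = c * Real.sqrt l + 2 * Real.sqrt l := by ring
    rw [h2]
    linarith
  have hXnn : 0 ≤ (a + Real.log l) / Real.sqrt l := by positivity
  have heq : Real.log R * ((a + Real.log l) / l) =
      ((a + Real.log l) / Real.sqrt l) * (Real.log R / Real.sqrt l) := by
    rw [div_mul_div_comm, hss, mul_div_assoc', mul_comm]
  rw [heq]
  exact mul_le_mul hX hY (by positivity) (by linarith)

/-- For every `ε > 0`, `c_δ ≥ 1` there are `b₁`, `C₀`, `E₁` with, for all `l ≥ 1`, `x ∈ [0, 1]`, `R = max (sqrt (baseT l)) c_δ`, `T = (baseT l)^(1 / b₁)`: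
`1 ≤ T`, `l ≤ T^b₁`, `R^x T ≤ C₀ (1 + l)^(x / 2 + ε)`, the last conjunct says `R^(log (b₁ l) / l) ≤ E₁`.
Uses `baseT l ≤ C (1 + l)^(1 + δ)` from `P064T.NumT`, and `(A + log (1 + l)) (B + log l) / l` bounded on `l ≥ 1`. -/
lemma exists_parV (ε cδ : ℝ) (hε : 0 < ε) (hc : 1 ≤ cδ) :
    ∃ (b₁ : ℕ) (C₀ E₁ : ℝ), 1 ≤ b₁ ∧ 0 < C₀ ∧ 1 ≤ E₁ ∧ ∀ l : ℝ, 1 ≤ l →
      1 ≤ (baseT l) ^ (1 / (b₁ : ℝ)) ∧ l ≤ ((baseT l) ^ (1 / (b₁ : ℝ))) ^ b₁ ∧
      (∀ x : ℝ, 0 ≤ x → x ≤ 1 →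
        (max (Real.sqrt (baseT l)) cδ) ^ x * (baseT l) ^ (1 / (b₁ : ℝ)) ≤
          C₀ * (1 + l) ^ (x / 2 + ε)) ∧
      (max (Real.sqrt (baseT l)) cδ) ^ (Real.log ((b₁ : ℝ) * l) / l) ≤ E₁ := by
  obtain ⟨η, hηdef⟩ : ∃ η : ℝ, η = min ε 1 := ⟨_, rfl⟩
  have hη0 : 0 < η := by rw [hηdef]; exact lt_min hε one_pos
  have hηε : η ≤ ε := by rw [hηdef]; exact min_le_left _ _
  have hη1 : η ≤ 1 := by rw [hηdef]; exact min_le_right _ _
  obtain ⟨b₁', hb₁'⟩ := exists_nat_gt (8 / η)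
  obtain ⟨b₁, hb₁def⟩ : ∃ b₁ : ℕ, b₁ = b₁' + 1 := ⟨_, rfl⟩
  have hb₁pos : (0 : ℝ) < (b₁ : ℝ) := by
    rw [hb₁def]; positivity
  have hb₁one : (1 : ℝ) ≤ (b₁ : ℝ) := by
    rw [hb₁def]; push_cast; have : (0:ℝ) ≤ (b₁' : ℝ) := Nat.cast_nonneg _; linarith
  have hb₁gt : 8 / η < (b₁ : ℝ) := by
    rw [hb₁def]; push_cast; linarith
  have h1b : 1 / (b₁ : ℝ) ≤ η / 8 := by
    rw [div_lt_iff₀ hη0] at hb₁gt
    rw [div_le_div_iff₀ hb₁pos (by norm_num)]
    linarith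
  have h1b0 : 0 < 1 / (b₁ : ℝ) := by positivity
  obtain ⟨δ, hδ⟩ : ∃ δ : ℝ, δ = η / 2 := ⟨_, rfl⟩
  have hδ0 : 0 < δ := by rw [hδ]; positivity
  have hδ1 : δ ≤ 1 := by rw [hδ]; linarith
  obtain ⟨A, hA⟩ : ∃ A : ℝ, A = 12 * (4 / δ + 12) ^ 2 := ⟨_, rfl⟩
  have hA1 : 1 ≤ A := by
    rw [hA]
    have : (0 : ℝ) ≤ 4 / δ := by positivity
    nlinarith
  have hA0 : 0 < A := by linarith
  -- the constant
  obtain ⟨A', hA'⟩ : ∃ A' : ℝ, A' = Real.sqrt A + cδ := ⟨_, rfl⟩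
  have hsA : 1 ≤ Real.sqrt A := Real.one_le_sqrt.2 hA1
  have hA'1 : 1 ≤ A' := by rw [hA']; linarith
  have hA'0 : 0 < A' := by linarith
  -- the bound on R
  have hRbound : ∀ l : ℝ, 1 ≤ l →
      max (Real.sqrt (baseT l)) cδ ≤ A' * (1 + l) ^ ((1 + δ) / 2) := by
    intro l hl
    have hl1 : (1 : ℝ) ≤ 1 + l := by linarith
    have hl0 : (0 : ℝ) < 1 + l := by linarith
    have hpow1 : (1 : ℝ) ≤ (1 + l) ^ ((1 + δ) / 2) := Real.one_le_rpow hl1 (by positivity)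
    apply max_le
    · have h9 : baseT l ≤ A * (1 + l) ^ (1 + δ) := by
        rw [hA]; exact baseT_le_rpow hδ0 hl
      have h10 : Real.sqrt (baseT l) ≤ Real.sqrt (A * (1 + l) ^ (1 + δ)) := Real.sqrt_le_sqrt h9
      have h11 : Real.sqrt (A * (1 + l) ^ (1 + δ)) = Real.sqrt A * (1 + l) ^ ((1 + δ) / 2) := by
        rw [Real.sqrt_mul hA0.le, Real.sqrt_eq_rpow ((1 + l) ^ (1 + δ)), ← Real.rpow_mul hl0.le]
        congr 2
        ring
      rw [h11] at h10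
      refine h10.trans ?_
      apply mul_le_mul_of_nonneg_right _ (by linarith)
      rw [hA']; linarith
    · calc cδ ≤ A' := by rw [hA']; linarith
        _ ≤ A' * (1 + l) ^ ((1 + δ) / 2) := by nlinarith
  -- the constant for the last conjunct
  obtain ⟨a, ha⟩ : ∃ a : ℝ, a = Real.log b₁ := ⟨_, rfl⟩
  have ha0 : 0 ≤ a := by rw [ha]; exact Real.log_nonneg hb₁one
  obtain ⟨c, hcdef⟩ : ∃ c : ℝ, c = Real.log A' + 1 := ⟨_, rfl⟩
  have hc1 : 1 ≤ c := by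
    rw [hcdef]
    have := Real.log_nonneg hA'1
    linarith
  refine ⟨b₁, A' * A ^ (1 / (b₁ : ℝ)), Real.exp ((a + 2) * (c + 2)), by rw [hb₁def]; omega,
    by positivity, Real.one_le_exp (by positivity), ?_⟩
  intro l hl
  obtain ⟨hB1, _, _, hBl⟩ := baseT_facts hl
  have hB0 : 0 < baseT l := by linarith
  have hl1 : (1 : ℝ) ≤ 1 + l := by linarith
  have hl0 : (0 : ℝ) < 1 + l := by linarith
  have hl00 : (0 : ℝ) < l := by linarith
  have hR1 : 1 ≤ max (Real.sqrt (baseT l)) cδ := hc.trans (le_max_right _ _)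
  have hR0 : 0 < max (Real.sqrt (baseT l)) cδ := by linarith
  have hR := hRbound l hl
  refine ⟨Real.one_le_rpow hB1 h1b0.le, ?_, ?_, ?_⟩
  · have : ((baseT l) ^ (1 / (b₁ : ℝ))) ^ b₁ = baseT l := by
      rw [← Real.rpow_natCast, ← Real.rpow_mul hB0.le]
      have hne : (b₁ : ℝ) ≠ 0 := hb₁pos.ne'
      rw [one_div, inv_mul_cancel₀ hne, Real.rpow_one]
    rw [this]; exact hBl
  · intro x hx0 hx1
    have hT : (baseT l) ^ (1 / (b₁ : ℝ)) ≤ A ^ (1 / (b₁ : ℝ)) * (1 + l) ^ (η / 4) := by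
      have h9 : baseT l ≤ A * (1 + l) ^ (1 + δ) := by
        rw [hA]; exact baseT_le_rpow hδ0 hl
      calc (baseT l) ^ (1 / (b₁ : ℝ)) ≤ (A * (1 + l) ^ (1 + δ)) ^ (1 / (b₁ : ℝ)) :=
            Real.rpow_le_rpow hB0.le h9 h1b0.le
        _ = A ^ (1 / (b₁ : ℝ)) * (1 + l) ^ ((1 + δ) * (1 / (b₁ : ℝ))) := by
            rw [Real.mul_rpow hA0.le (by positivity), ← Real.rpow_mul hl0.le]
        _ ≤ A ^ (1 / (b₁ : ℝ)) * (1 + l) ^ (η / 4) := by
            apply mul_le_mul_of_nonneg_left _ (by positivity)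
            apply Real.rpow_le_rpow_of_exponent_le hl1
            have h2 : (1 + δ) * (1 / (b₁ : ℝ)) ≤ 2 * (η / 8) := by
              apply mul_le_mul (by linarith) h1b h1b0.le (by norm_num)
            linarith
    have hRx : (max (Real.sqrt (baseT l)) cδ) ^ x ≤ A' * (1 + l) ^ (x / 2 + η / 4) := by
      calc (max (Real.sqrt (baseT l)) cδ) ^ x
          ≤ (A' * (1 + l) ^ ((1 + δ) / 2)) ^ x := Real.rpow_le_rpow hR0.le hR hx0
        _ = A' ^ x * (1 + l) ^ ((1 + δ) / 2 * x) := by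
            rw [Real.mul_rpow hA'0.le (by positivity), ← Real.rpow_mul hl0.le]
        _ ≤ A' * (1 + l) ^ (x / 2 + η / 4) := by
            apply mul_le_mul _ _ (by positivity) hA'0.le
            · calc A' ^ x ≤ A' ^ (1 : ℝ) := Real.rpow_le_rpow_of_exponent_le hA'1 hx1
                _ = A' := Real.rpow_one _
            · apply Real.rpow_le_rpow_of_exponent_le hl1
              have h3 : δ * x ≤ δ * 1 := mul_le_mul_of_nonneg_left hx1 hδ0.le
              rw [hδ] at h3 ⊢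
              nlinarith
    have hTnn : 0 ≤ (baseT l) ^ (1 / (b₁ : ℝ)) := by positivity
    calc (max (Real.sqrt (baseT l)) cδ) ^ x * (baseT l) ^ (1 / (b₁ : ℝ))
        ≤ (A' * (1 + l) ^ (x / 2 + η / 4)) * (A ^ (1 / (b₁ : ℝ)) * (1 + l) ^ (η / 4)) :=
          mul_le_mul hRx hT hTnn (by positivity)
      _ = (A' * A ^ (1 / (b₁ : ℝ))) * (1 + l) ^ (x / 2 + η / 4 + η / 4) := by
          rw [Real.rpow_add hl0 (x / 2 + η / 4)]
          ring
      _ ≤ (A' * A ^ (1 / (b₁ : ℝ))) * (1 + l) ^ (x / 2 + ε) := by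
          apply mul_le_mul_of_nonneg_left _ (by positivity)
          apply Real.rpow_le_rpow_of_exponent_le hl1
          linarith
  · exact last_conj hb₁pos ha0 (by rw [ha]) hc1 (by rw [hcdef]) hA'0 hδ1 hR1 hR hl

end Vale.Agent.Lib.P064M
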