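import Vale.Agent.Lib.P064M.BlockTV
import Vale.Agent.Lib.P064M.NumV
import Vale.Agent.Lib.P064T.EmbT

/-!
Part H2: the embedding bound with per-edge loss `(1 + l)^(lam / (2 l) + ε)`, away from `l / lam` integer.
-/

open Finset

namespace Vale.Agent.Lib.P064M

open Vale.Agent.Lib.P064 Vale.Agent.Lib.P064E Vale.Agent.Lib.P064U Vale.Agent.Lib.P064T
open scoped Classical

/-- The numbers for the common neighbours. -/
lemma codPar_of_sep {δ l lam : ℝ} (hδ : 0 < δ) (hl : 1 ≤ l) (hlam : 1 ≤ lam) (hlaml : lam ≤ l)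
    (hδl : δ * l ≤ lam) (hsep : ∀ d : ℕ, 2 ≤ d → δ * l ≤ |(d : ℝ) * lam - l|)
    (hc1 : 1 ≤ 2 * (1 / δ + 1) / δ) :
    CodPar l lam (⌊l / lam⌋₊ + 1) (2 * (1 / δ + 1) / δ) := by
  have hl0 : 0 < l := by linarith
  have hlam0 : 0 < lam := by linarith
  have hfl : l / lam < (⌊l / lam⌋₊ : ℝ) + 1 := Nat.lt_floor_add_one _
  have hfl2 : (⌊l / lam⌋₊ : ℝ) ≤ l / lam := Nat.floor_le (by positivity)
  have hpos : l < ((⌊l / lam⌋₊ + 1 : ℕ) : ℝ) * lam := by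
    push_cast
    rwa [div_lt_iff₀ hlam0] at hfl
  have hone : 1 ≤ l / lam := by rwa [le_div_iff₀ hlam0, one_mul]
  have hf1 : 1 ≤ ⌊l / lam⌋₊ := Nat.le_floor (by simpa using hone)
  refine ⟨by omega, hpos, ?_, hc1⟩
  have hs := hsep (⌊l / lam⌋₊ + 1) (by omega)
  rw [abs_of_pos (by linarith)] at hs
  obtain ⟨d, hd⟩ : ∃ d : ℝ, d = ((⌊l / lam⌋₊ + 1 : ℕ) : ℝ) := ⟨_, rfl⟩
  rw [← hd] at hs ⊢
  have hd1 : d ≤ 1 / δ + 1 := by
    rw [hd]
    push_cast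
    have h3 : l / lam ≤ 1 / δ := by
      rw [div_le_div_iff₀ hlam0 hδ]
      linarith
    linarith
  have h4 : 0 < 1 / δ + 1 := by positivity
  have hcδ : 2 * (1 / δ + 1) / δ * (δ * l) = 2 * (1 / δ + 1) * l := by
    field_simp
  have hc0 : 0 ≤ 2 * (1 / δ + 1) / δ := by positivity
  have h5 := mul_le_mul_of_nonneg_left hs hc0
  rw [hcδ] at h5
  have h6 : d * l ≤ (1 / δ + 1) * l := mul_le_mul_of_nonneg_right hd1 hl0.le
  nlinarith

/-- `BlockParV.single`. -/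
lemma single_of_sep {n : ℕ} {q l lam δ : ℝ} (hs : Std n q l lam) (hδ : 0 < δ) (hδ1 : δ ≤ 1)
    (hl4 : 4 ≤ δ ^ 3 * l) (hδl : δ * l ≤ lam)
    (hsep : ∀ d : ℕ, 2 ≤ d → δ * l ≤ |(d : ℝ) * lam - l|) {m : ℕ} (hm2 : 2 ≤ m)
    (hmlam : (m : ℝ) * (lam - 1) ≤ l) : (m : ℝ) * l ≤ (n : ℝ) * q ^ m := by
  have hl0 : 0 < l := by have := hs.l1; linarith
  have hδ2le : δ ^ 3 ≤ δ ^ 2 := by
    have : δ ^ 3 = δ ^ 2 * δ := by ring
    rw [this]
    have h2 : 0 < δ ^ 2 := by positivity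
    nlinarith
  have hδ21 : δ ^ 2 ≤ δ := by nlinarith
  have hl4' : 4 ≤ δ ^ 2 * l := by nlinarith
  have hl4'' : 4 ≤ δ * l := by nlinarith
  have hm2' : (2 : ℝ) ≤ (m : ℝ) := by exact_mod_cast hm2
  have hm0 : (0 : ℝ) < (m : ℝ) := by linarith
  have h1 : (m : ℝ) * (δ * l / 2) ≤ l := by
    have h2 : δ * l / 2 ≤ lam - 1 := by linarith
    have h3 := mul_le_mul_of_nonneg_left h2 hm0.le
    linarith
  have hmδ : (m : ℝ) * δ ≤ 2 := by
    have h2 : ((m : ℝ) * δ) * l ≤ 2 * l := by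
      have h3 : ((m : ℝ) * δ) * l = 2 * ((m : ℝ) * (δ * l / 2)) := by ring
      rw [h3]
      linarith
    exact le_of_mul_le_mul_right h2 hl0
  have hs1 := hsep m hm2
  have hneg : (m : ℝ) * lam - l < 0 := by
    by_contra hcon
    push Not at hcon
    rw [abs_of_nonneg hcon] at hs1
    have h2 : (m : ℝ) * lam - l ≤ (m : ℝ) := by
      have h3 : (m : ℝ) * (lam - 1) = (m : ℝ) * lam - (m : ℝ) := by ring
      rw [h3] at hmlam
      linarith
    have h3 : δ * l ≤ (m : ℝ) := hs1.trans h2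
    have h4 : δ * (δ * l) ≤ δ * (m : ℝ) := mul_le_mul_of_nonneg_left h3 hδ.le
    have h5 : δ * (δ * l) = δ ^ 2 * l := by ring
    have h6 : δ * (m : ℝ) = (m : ℝ) * δ := by ring
    linarith
  rw [abs_of_neg hneg] at hs1
  have hxm : (n : ℝ) * q ^ m = Real.exp (l - (m : ℝ) * lam) := by
    have := x_eq_exp hs 1 m
    simpa using this
  rw [hxm]
  have hexp : Real.exp (δ * l) ≤ Real.exp (l - (m : ℝ) * lam) :=
    Real.exp_le_exp.2 (by linarith)
  refine le_trans ?_ hexp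
  have hy0 : 0 ≤ δ * l := by positivity
  have hq := Real.quadratic_le_exp_of_nonneg hy0
  have h5 : (m : ℝ) * l * δ ≤ 2 * l := by
    have h6 : (m : ℝ) * l * δ = ((m : ℝ) * δ) * l := by ring
    rw [h6]
    exact mul_le_mul_of_nonneg_right hmδ hl0.le
  have h6 : 2 * l ≤ (δ * l) ^ 2 / 2 * δ := by
    have h7 : (δ * l) ^ 2 / 2 * δ = (δ ^ 3 * l) * l / 2 := by ring
    rw [h7]
    nlinarith
  have h7 : (m : ℝ) * l * δ ≤ Real.exp (δ * l) * δ := by
    have h8 : (δ * l) ^ 2 / 2 ≤ Real.exp (δ * l) := by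
      have : 0 ≤ 1 + δ * l := by positivity
      linarith
    have h9 := mul_le_mul_of_nonneg_right h8 hδ.le
    linarith
  exact le_of_mul_le_mul_right h7 hδ

/-- The embedding bound. Hypotheses: `δ l ≤ lam` and `δ l ≤ |d lam - l|` for all integers `d ≥ 2`, and `l₀ ≤ l`. Take `d₀ = ⌊l / lam⌋₊ + 1`, `c₀ = cδ = 2 (1 / δ + 1) / δ`, `R = max (sqrt (baseT l)) cδ`, `A = R^(lam / l)`,
`T = (baseT l)^(1 / b₁)` (`exists_parV`), `Λ = exp 23 b₁^(2 b₁) E₁ A T + l / (n q)`; `block_allV` and `embBound_chainT`. `BlockParV.single`: if `m (lam - 1) ≤ l`, `1 ≤ x_m e^m`, then `m ≤ 2 / δ` and `log x_m = l - m lam ≥ δ l`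
(by the hypothesis, since `l - m lam ≥ - m` excludes the negative sign for large `l`), so `x_m ≥ exp (δ l) ≥ m l` for `l ≥ l₀`. -/
theorem embBound_V (δ ε : ℝ) (hδ : 0 < δ) (hδ1 : δ ≤ 1) (hε : 0 < ε) :
    ∃ (C l₀ : ℝ), 0 < C ∧ 1 ≤ l₀ ∧ ∀ (n : ℕ) (q l lam : ℝ) (V : Type) [Fintype V] (H : SimpleGraph V),
      Std n q l lam → GoodDensity n q H → Fintype.card V ≤ n → l₀ ≤ l → δ * l ≤ lam →
      (∀ d : ℕ, 2 ≤ d → δ * l ≤ |(d : ℝ) * lam - l|) →
      EmbBound n H (C * (q * (1 + l) ^ (lam / (2 * l) + ε) + l / (n : ℝ))) := by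
  obtain ⟨cδ, hcδ⟩ : ∃ cδ : ℝ, cδ = 2 * (1 / δ + 1) / δ := ⟨_, rfl⟩
  have h1δ : 1 ≤ 1 / δ := by rwa [le_div_iff₀ hδ, one_mul]
  have hcδ1 : 1 ≤ cδ := by
    rw [hcδ, le_div_iff₀ hδ]
    nlinarith
  obtain ⟨b₁, C₀, E₁, hb₁, hC₀, hE₁, hpar⟩ := exists_parV ε cδ hε hcδ1
  obtain ⟨E, hE⟩ : ∃ E : ℝ, E = Real.exp (19 + 4) * ((b₁ : ℝ) ^ (2 * b₁)) * E₁ := ⟨_, rfl⟩
  have hE0 : 0 ≤ E := by
    rw [hE]
    positivity
  have hδ3 : 0 < δ ^ 3 := by positivity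
  refine ⟨Real.exp 2 * (E * C₀ + 1), 4 / δ ^ 3 + cδ + 1, by positivity, ?_, ?_⟩
  · have : 0 ≤ 4 / δ ^ 3 := by positivity
    linarith
  intro n q l lam V _ H hs hG hV hl₀ hδl hsep
  have hl1 := hs.l1
  have hl0 : 0 < l := by linarith
  have hq0 := hs.q0
  have hlam1 := hs.lam1
  have hlam0 : 0 < lam := by linarith
  have hlaml := hs.lam_le
  have hn1 : (1 : ℝ) ≤ (n : ℝ) := by exact_mod_cast hs.n1
  have hn0 : (0 : ℝ) < (n : ℝ) := by linarith
  have h4δ : 0 ≤ 4 / δ ^ 3 := by positivity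
  have hlcδ : cδ ≤ l := by linarith
  have hl4 : 4 ≤ δ ^ 3 * l := by
    have h2 : 4 / δ ^ 3 ≤ l := by linarith
    rwa [div_le_iff₀ hδ3, mul_comm] at h2
  obtain ⟨hT1, hlT, hRT, hRE⟩ := hpar l hl1
  obtain ⟨hB1, _, hB2, hB3⟩ := baseT_facts hl1
  have hBe := baseT_le_exp hl1
  obtain ⟨R, hR⟩ : ∃ R, R = max (Real.sqrt (baseT l)) cδ := ⟨_, rfl⟩
  obtain ⟨T, hT⟩ : ∃ T, T = (baseT l) ^ (1 / (b₁ : ℝ)) := ⟨_, rfl⟩
  obtain ⟨x, hx⟩ : ∃ x, x = lam / l := ⟨_, rfl⟩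
  have hx0 : 0 ≤ x := by rw [hx]; positivity
  have hx1 : x ≤ 1 := by rw [hx, div_le_one hl0]; exact hlaml
  rw [← hR] at hRE
  rw [← hT] at hT1 hlT
  have hRT' := hRT x hx0 hx1
  rw [← hR, ← hT] at hRT'
  have hRc : cδ ≤ R := by rw [hR]; exact le_max_right _ _
  have hRs : Real.sqrt (baseT l) ≤ R := by rw [hR]; exact le_max_left _ _
  have hR1 : 1 ≤ R := hcδ1.trans hRc
  have hR0 : 0 < R := by linarith
  have hRb : baseT l ≤ R ^ 2 := by
    have h2 : Real.sqrt (baseT l) ^ 2 = baseT l := Real.sq_sqrt (by linarith)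
    rw [← h2]
    exact pow_le_pow_left₀ (Real.sqrt_nonneg _) hRs 2
  have hRe : R ≤ Real.exp (scaleT l) := by
    rw [hR]
    apply max_le
    · have h2 : Real.sqrt (baseT l) ≤ baseT l := by
        rw [Real.sqrt_le_left (by linarith)]
        nlinarith
      exact h2.trans hBe
    · exact hlcδ.trans (hB3.trans hBe)
  obtain ⟨A, hA⟩ : ∃ A, A = R ^ x := ⟨_, rfl⟩
  rw [← hA] at hRT'
  have hA1 : 1 ≤ A := by
    rw [hA]
    exact Real.one_le_rpow hR1 hx0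
  have hApow : ∀ m : ℕ, A ^ m = R ^ (x * (m : ℝ)) := by
    intro m
    rw [hA, Real.rpow_mul hR0.le, Real.rpow_natCast]
  have hAT0 : 0 ≤ A * T := by
    apply mul_nonneg <;> linarith
  obtain ⟨Λ, hΛdef⟩ : ∃ Λ, Λ = E * (A * T) + l / ((n : ℝ) * q) := ⟨_, rfl⟩
  have hlnq : 0 ≤ l / ((n : ℝ) * q) := by
    apply div_nonneg <;> first | linarith | positivity
  have hEA : 0 ≤ E * (A * T) := mul_nonneg hE0 hAT0
  have hΛ0 : 0 ≤ Λ := by
    rw [hΛdef]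
    linarith
  have hp : BlockParV n q l lam b₁ R A T E₁ Λ := by
    refine ⟨hR1, hA1, hT1, hE₁, hb₁, hlT, hB2.trans hRb, ?_, ?_, ?_, ?_, ?_⟩
    · intro b m hbm
      rw [hApow, ← Real.rpow_natCast R b]
      apply Real.rpow_le_rpow_of_exponent_le hR1
      rw [hx, div_mul_eq_mul_div, le_div_iff₀ hl0]
      linarith
    · intro b m hm hmb h
      have hm1 : (1 : ℝ) ≤ (m : ℝ) := by exact_mod_cast hm
      have hm0 : (0 : ℝ) < (m : ℝ) * l := by positivity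
      have hb₁1 : (m : ℝ) ≤ (b₁ : ℝ) := by exact_mod_cast hmb.le
      have hlogle : Real.log ((m : ℝ) * l) / l ≤ Real.log ((b₁ : ℝ) * l) / l := by
        apply div_le_div_of_nonneg_right _ hl0.le
        apply Real.log_le_log hm0
        exact mul_le_mul_of_nonneg_right hb₁1 hl0.le
      have hexp : (b : ℝ) ≤ x * (m : ℝ) + Real.log ((m : ℝ) * l) / l := by
        have h2 : x * (m : ℝ) + Real.log ((m : ℝ) * l) / l =
            (lam * (m : ℝ) + Real.log ((m : ℝ) * l)) / l := by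
          rw [hx]
          field_simp
        rw [h2, le_div_iff₀ hl0]
        linarith
      calc R ^ b = R ^ (b : ℝ) := (Real.rpow_natCast R b).symm
        _ ≤ R ^ (x * (m : ℝ) + Real.log ((m : ℝ) * l) / l) :=
            Real.rpow_le_rpow_of_exponent_le hR1 hexp
        _ = R ^ (x * (m : ℝ)) * R ^ (Real.log ((m : ℝ) * l) / l) := Real.rpow_add hR0 _ _
        _ = A ^ m * R ^ (Real.log ((m : ℝ) * l) / l) := by rw [hApow]
        _ ≤ A ^ m * E₁ := by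
            apply mul_le_mul_of_nonneg_left _ (by positivity)
            exact (Real.rpow_le_rpow_of_exponent_le hR1 hlogle).trans hRE
        _ = E₁ * A ^ m := by ring
    · rw [hΛdef, ← hE]
      have : E * A * T = E * (A * T) := by ring
      linarith
    · rw [hΛdef]
      linarith
    · intro m hm2 hmlam _
      exact single_of_sep hs hδ hδ1 hl4 hδl hsep hm2 hmlam
  have hcod : CodPar l lam (⌊l / lam⌋₊ + 1) cδ := by
    rw [hcδ]
    exact codPar_of_sep hδ hl1 hlam1 hlaml hδl hsep (hcδ ▸ hcδ1)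
  have hblock : ∀ (β : Type) [Fintype β] (G : SimpleGraph β) (K C : Finset β),
      MinBlock G l lam K C → BlockGoalT G H n q Λ K C := by
    intro β _ G K C hb
    exact block_allV hG hs hV hb hcod hp hRc hRb hRe
  have hmain := embBound_chainT hG hs hΛ0 hblock
  refine embBound_mono (by positivity) ?_ hmain
  have hxe : lam / (2 * l) = x / 2 := by
    rw [hx]
    field_simp
  rw [hxe]
  have h1 : (1 + l) ^ (x / 2 + ε) ≥ 0 := by positivity
  have hln : 0 ≤ l / (n : ℝ) := by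
    apply div_nonneg <;> linarith
  have heq : q * Λ = q * E * (A * T) + l / (n : ℝ) := by
    rw [hΛdef]
    field_simp
  have hbound : q * Λ ≤ (E * C₀ + 1) * (q * (1 + l) ^ (x / 2 + ε) + l / (n : ℝ)) := by
    rw [heq]
    have h2 : q * E * (A * T) ≤ q * E * (C₀ * (1 + l) ^ (x / 2 + ε)) :=
      mul_le_mul_of_nonneg_left hRT' (by positivity)
    have h3 : 0 ≤ E * C₀ * (l / (n : ℝ)) := by positivity
    have h4 : 0 ≤ q * (1 + l) ^ (x / 2 + ε) := by positivity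
    have h5 : q * E * (C₀ * (1 + l) ^ (x / 2 + ε)) = E * C₀ * (q * (1 + l) ^ (x / 2 + ε)) := by ring
    have h6 : (E * C₀ + 1) * (q * (1 + l) ^ (x / 2 + ε) + l / (n : ℝ)) =
        E * C₀ * (q * (1 + l) ^ (x / 2 + ε)) + E * C₀ * (l / (n : ℝ)) +
          q * (1 + l) ^ (x / 2 + ε) + l / (n : ℝ) := by ring
    rw [h6]
    linarith
  calc Real.exp 2 * q * Λ = Real.exp 2 * (q * Λ) := by ring
    _ ≤ Real.exp 2 * ((E * C₀ + 1) * (q * (1 + l) ^ (x / 2 + ε) + l / (n : ℝ))) :=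
        mul_le_mul_of_nonneg_left hbound (Real.exp_pos _).le
    _ = _ := by ring

end Vale.Agent.Lib.P064M
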