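import Vale.Agent.Lib.P064M.EmbV
import Vale.Agent.Lib.P064T.Uniform

/-!
Part H3: the thresholds. With `P = max (p_E, 1 / n)`, `a = log (1 / P) / log n`, if `a ≥ δ` and `|d a - 1| ≥ δ` for all integers `d ≥ 2`:
per-edge loss `(log n)^(a / 2 + ε)`, plus the pendant term.
-/

open Finset

namespace Vale.Agent.Lib.P064M

open Vale.Agent.Lib.P064 Vale.Agent.Lib.P064E Vale.Agent.Lib.P064U Vale.Agent.Lib.P064T
open scoped Classical

/-- Separation at `q`, from separation at `P`: the shift `θ = log 4` is small. -/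
lemma sep_num {δ a L lam θ : ℝ} {d : ℕ} (hδ : 0 < δ) (hδ1 : δ ≤ 1) (ha : δ ≤ a) (hθ : 0 ≤ θ)
    (hL0 : 0 < L) (hL : 4 * θ ≤ δ ^ 2 * L) (hlam1 : a * L - θ ≤ lam) (hlam2 : lam ≤ a * L)
    (hsep : δ ≤ |(d : ℝ) * a - 1|) (hd2 : 2 ≤ d) :
    (δ / 2) * L ≤ |(d : ℝ) * lam - L| := by
  have hd : (2 : ℝ) ≤ (d : ℝ) := by exact_mod_cast hd2
  have hd0 : (0 : ℝ) ≤ (d : ℝ) := by linarith
  have hδL : δ ^ 2 * L ≤ δ * L := by
    have h1 : δ ^ 2 ≤ δ := by nlinarith
    exact mul_le_mul_of_nonneg_right h1 hL0.le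
  have hδL0 : 0 < δ * L := by positivity
  rcases le_abs.1 hsep with h | h
  · -- `d a - 1 ≥ δ`
    by_cases h2 : 2 ≤ (d : ℝ) * a
    · have h3 : (3 / 4) * (a * L) ≤ lam := by
        have h4 : δ * L ≤ a * L := mul_le_mul_of_nonneg_right ha hL0.le
        linarith
      have h5 : (d : ℝ) * ((3 / 4) * (a * L)) ≤ (d : ℝ) * lam := mul_le_mul_of_nonneg_left h3 hd0
      have h6 : (d : ℝ) * ((3 / 4) * (a * L)) = (3 / 4) * (((d : ℝ) * a) * L) := by ring
      have h7 : 2 * L ≤ ((d : ℝ) * a) * L := mul_le_mul_of_nonneg_right h2 hL0.le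
      have h8 : (δ / 2) * L ≤ L / 2 := by nlinarith
      refine le_trans ?_ (le_abs_self _)
      linarith
    · push Not at h2
      have h3 : (d : ℝ) * δ ≤ (d : ℝ) * a := mul_le_mul_of_nonneg_left ha hd0
      have h4 : (d : ℝ) * θ * δ ≤ 2 * θ := by nlinarith
      have h5 : (d : ℝ) * θ ≤ δ * L / 2 := by
        have h6 : (d : ℝ) * θ * δ ≤ (δ * L / 2) * δ := by nlinarith
        exact le_of_mul_le_mul_right h6 hδ
      have h7 : (d : ℝ) * (a * L - θ) ≤ (d : ℝ) * lam := mul_le_mul_of_nonneg_left hlam1 hd0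
      have h8 : δ * L ≤ ((d : ℝ) * a - 1) * L := mul_le_mul_of_nonneg_right h hL0.le
      refine le_trans ?_ (le_abs_self _)
      have h9 : (d : ℝ) * (a * L - θ) = ((d : ℝ) * a) * L - (d : ℝ) * θ := by ring
      have h10 : ((d : ℝ) * a - 1) * L = ((d : ℝ) * a) * L - L := by ring
      rw [h9] at h7
      rw [h10] at h8
      have h11 : (δ / 2) * L = δ * L / 2 := by ring
      rw [h11]
      linarith
  · -- `d a - 1 ≤ - δ`
    have h7 : (d : ℝ) * lam ≤ (d : ℝ) * (a * L) := mul_le_mul_of_nonneg_left hlam2 hd0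
    have h8 : δ * L ≤ (-((d : ℝ) * a - 1)) * L := mul_le_mul_of_nonneg_right h hL0.le
    refine le_trans ?_ (neg_le_abs _)
    have h9 : (d : ℝ) * (a * L) = ((d : ℝ) * a) * L := by ring
    have h10 : (-((d : ℝ) * a - 1)) * L = L - ((d : ℝ) * a) * L := by ring
    rw [h9] at h7
    rw [h10] at h8
    have h11 : (δ / 2) * L = δ * L / 2 := by ring
    rw [h11]
    linarith

/-- The small and the trivial cases of the thresholds. -/
lemma small_case {n : ℕ} {V : Type} [Fintype V] {H : SimpleGraph V} {P Y x q C Cu L₀ : ℝ}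
    (hV : Fintype.card V ≤ n) (hn0 : (0 : ℝ) < n) (hx1 : 1 ≤ x)
    (hP0 : 0 < P) (hY1 : 1 ≤ Y) (hC0 : 0 < C) (hCu : 0 < Cu) (hL₀1 : 1 ≤ L₀)
    (hCbig : Cu * L₀ + 4 * Real.exp 1 ≤ C) (hq4 : q ≤ 4 * P)
    (hu : pTilde n H ≤ Cu * P * x ^ ((1 : ℝ) / 2 + 1 / 2) ∧
      pc n H ≤ Cu * P * x ^ ((3 : ℝ) / 2 + 1 / 2))
    (hcase : x < L₀ ∨ Real.exp (-1) < q) :
    pTilde n H ≤ C * (P * Y + x / (n : ℝ)) ∧ pc n H ≤ C * x * (P * Y + x / (n : ℝ)) := by
  have hx0 : 0 < x := by linarith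
  have hxn : 0 ≤ x / (n : ℝ) := by positivity
  have hY0 : 0 < Y := by linarith
  have hPY : 0 < P * Y := by positivity
  have hCL : 0 < Cu * L₀ := by positivity
  have hCe : 0 < Real.exp 1 := Real.exp_pos _
  have hmul : C * (P * Y) ≤ C * (P * Y + x / (n : ℝ)) :=
    mul_le_mul_of_nonneg_left (by linarith) hC0.le
  have hPPY : P ≤ P * Y := by nlinarith
  have hbase : C * (P * Y) ≤ C * x * (P * Y + x / (n : ℝ)) := by
    have h2 : C * (P * Y) * 1 ≤ C * (P * Y + x / (n : ℝ)) * x :=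
      mul_le_mul hmul hx1 (by norm_num) (by positivity)
    have h3 : C * (P * Y + x / (n : ℝ)) * x = C * x * (P * Y + x / (n : ℝ)) := by ring
    rw [h3] at h2
    linarith
  rcases hcase with hxL | hqe
  · -- `x < L₀`
    obtain ⟨hu1, hu2⟩ := hu
    have hexp1 : x ^ ((1 : ℝ) / 2 + 1 / 2) = x := by
      rw [show (1 : ℝ) / 2 + 1 / 2 = 1 by norm_num, Real.rpow_one]
    have hexp2 : x ^ ((3 : ℝ) / 2 + 1 / 2) = x * x := by
      rw [show (3 : ℝ) / 2 + 1 / 2 = 2 by norm_num, Real.rpow_two]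
      ring
    rw [hexp1] at hu1
    rw [hexp2] at hu2
    constructor
    · calc pTilde n H ≤ Cu * P * x := hu1
        _ ≤ Cu * P * L₀ := mul_le_mul_of_nonneg_left hxL.le (by positivity)
        _ = (Cu * L₀) * P := by ring
        _ ≤ C * (P * Y) := by
            apply mul_le_mul (by linarith) hPPY hP0.le hC0.le
        _ ≤ _ := hmul
    · calc pc n H ≤ Cu * P * (x * x) := hu2
        _ ≤ Cu * P * (L₀ * x) := by
            apply mul_le_mul_of_nonneg_left _ (by positivity)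
            exact mul_le_mul_of_nonneg_right hxL.le hx0.le
        _ = (Cu * L₀) * P * x := by ring
        _ ≤ C * (P * Y) * x := by
            apply mul_le_mul_of_nonneg_right _ hx0.le
            apply mul_le_mul (by linarith) hPPY hP0.le hC0.le
        _ ≤ C * (P * Y + x / (n : ℝ)) * x :=
            mul_le_mul_of_nonneg_right hmul hx0.le
        _ = _ := by ring
  · -- large `q`
    have h1P : 1 ≤ 4 * Real.exp 1 * P := by
      have h2 : Real.exp (-1) * Real.exp 1 = 1 := by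
        rw [← Real.exp_add]
        simp
      calc (1 : ℝ) = Real.exp (-1) * Real.exp 1 := h2.symm
        _ ≤ q * Real.exp 1 := mul_le_mul_of_nonneg_right hqe.le hCe.le
        _ ≤ (4 * P) * Real.exp 1 := mul_le_mul_of_nonneg_right hq4 hCe.le
        _ = _ := by ring
    have h1C : 1 ≤ C * (P * Y) := by
      have h2 : 4 * Real.exp 1 * P ≤ C * (P * Y) := by
        apply mul_le_mul (by linarith) hPPY hP0.le hC0.le
      linarith
    exact ⟨(pTilde_le_one hV).trans (h1C.trans hmul), (pc_le_one hV).trans (h1C.trans hbase)⟩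

/-- The main case of the thresholds, at `q` in the standing range. -/
lemma main_case {n : ℕ} {V : Type} [Fintype V] {H : SimpleGraph V} {P Y x q lam a ε C₁ A C : ℝ}
    (hn2 : 2 ≤ n) (hV : Fintype.card V ≤ n) (hH : H ≠ ⊥) (hn0 : (0 : ℝ) < n) (hx : x = Real.log n)
    (hx1 : 1 ≤ x) (hP0 : 0 < P) (hY : Y = x ^ (a / 2 + ε)) (hY1 : 1 ≤ Y) (ha0 : 0 < a) (ha1 : a ≤ 1)
    (hε : 0 < ε) (hq0 : 0 < q) (hq4 : q ≤ 4 * P) (hC₁ : 0 < C₁)
    (hA : A = 4 * C₁ * (2 : ℝ) ^ ((1 : ℝ) / 2 + ε)) (hA1 : A ≤ C) (h512 : 512 * A ≤ C)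
    (hlam1 : 1 ≤ lam) (hlamhi : lam ≤ a * x)
    (hΘ : EmbBound n H (C₁ * (q * (1 + x) ^ (lam / (2 * x) + ε) + x / (n : ℝ)))) :
    pTilde n H ≤ C * (P * Y + x / (n : ℝ)) ∧ pc n H ≤ C * x * (P * Y + x / (n : ℝ)) := by
  have hx0 : 0 < x := by linarith
  have hxn : 0 ≤ x / (n : ℝ) := by positivity
  have hY0 : 0 < Y := by linarith
  have hPY : 0 < P * Y := by positivity
  have h2pow : (1 : ℝ) ≤ (2 : ℝ) ^ ((1 : ℝ) / 2 + ε) :=
    Real.one_le_rpow (by norm_num) (by positivity)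
  obtain ⟨Θ, hΘdef⟩ : ∃ Θ, Θ = C₁ * (q * (1 + x) ^ (lam / (2 * x) + ε) + x / (n : ℝ)) := ⟨_, rfl⟩
  rw [← hΘdef] at hΘ
  have hΘ0 : 0 < Θ := by
    rw [hΘdef]
    positivity
  have hlamdiv : lam / (2 * x) ≤ a / 2 := by
    rw [div_le_div_iff₀ (by positivity) (by norm_num)]
    linarith
  have hlam0 : 0 ≤ lam / (2 * x) := by
    apply div_nonneg <;> linarith
  have hpow : (1 + x) ^ (lam / (2 * x) + ε) ≤ (2 : ℝ) ^ ((1 : ℝ) / 2 + ε) * Y := by
    have hexp0 : 0 ≤ lam / (2 * x) + ε := by linarith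
    calc (1 + x) ^ (lam / (2 * x) + ε) ≤ (1 + x) ^ (a / 2 + ε) :=
          Real.rpow_le_rpow_of_exponent_le (by linarith) (by linarith)
      _ ≤ (2 * x) ^ (a / 2 + ε) := Real.rpow_le_rpow (by linarith) (by linarith) (by positivity)
      _ = (2 : ℝ) ^ (a / 2 + ε) * Y := by
          rw [hY, Real.mul_rpow (by norm_num) hx0.le]
      _ ≤ (2 : ℝ) ^ ((1 : ℝ) / 2 + ε) * Y := by
          apply mul_le_mul_of_nonneg_right _ hY0.le
          exact Real.rpow_le_rpow_of_exponent_le (by norm_num) (by linarith)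
  have hΘle : Θ ≤ A * (P * Y + x / (n : ℝ)) := by
    rw [hΘdef, hA]
    have hpos : 0 ≤ (1 + x) ^ (lam / (2 * x) + ε) := by positivity
    have h2 : q * (1 + x) ^ (lam / (2 * x) + ε) ≤ (4 * P) * ((2 : ℝ) ^ ((1 : ℝ) / 2 + ε) * Y) :=
      mul_le_mul hq4 hpow hpos (by positivity)
    have h3 : q * (1 + x) ^ (lam / (2 * x) + ε) + x / (n : ℝ) ≤
        4 * (2 : ℝ) ^ ((1 : ℝ) / 2 + ε) * (P * Y + x / (n : ℝ)) := by
      have h4 : (4 * P) * ((2 : ℝ) ^ ((1 : ℝ) / 2 + ε) * Y) =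
          4 * (2 : ℝ) ^ ((1 : ℝ) / 2 + ε) * (P * Y) := by ring
      rw [h4] at h2
      have h5 : 1 * (x / (n : ℝ)) ≤ 4 * (2 : ℝ) ^ ((1 : ℝ) / 2 + ε) * (x / (n : ℝ)) := by
        apply mul_le_mul_of_nonneg_right _ hxn
        linarith
      rw [mul_add]
      linarith
    calc C₁ * (q * (1 + x) ^ (lam / (2 * x) + ε) + x / (n : ℝ))
        ≤ C₁ * (4 * (2 : ℝ) ^ ((1 : ℝ) / 2 + ε) * (P * Y + x / (n : ℝ))) :=
          mul_le_mul_of_nonneg_left h3 hC₁.le
      _ = _ := by ring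
  have hW0 : 0 < P * Y + x / (n : ℝ) := by linarith
  constructor
  · calc pTilde n H ≤ Θ := pTilde_le_of_embBound hV hΘ0 hΘ
      _ ≤ A * (P * Y + x / (n : ℝ)) := hΘle
      _ ≤ C * (P * Y + x / (n : ℝ)) := mul_le_mul_of_nonneg_right hA1 hW0.le
  · calc pc n H ≤ 512 * Real.log n * Θ := pc_le_of_embBound hn2 hV hH hΘ0 hΘ
      _ = 512 * x * Θ := by rw [hx]
      _ ≤ 512 * x * (A * (P * Y + x / (n : ℝ))) :=
          mul_le_mul_of_nonneg_left hΘle (by positivity)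
      _ = (512 * A) * x * (P * Y + x / (n : ℝ)) := by ring
      _ ≤ C * x * (P * Y + x / (n : ℝ)) := by
          apply mul_le_mul_of_nonneg_right _ hW0.le
          exact mul_le_mul_of_nonneg_right h512 hx0.le

/-- The thresholds. `q = max (2 p, 1 / n)` as in `thresholds_uniform` of `P064T.Uniform`, `P ≤ q ≤ 4 P`, `lam = - log q`, `a L - log 4 ≤ lam ≤ a L`. For `L ≥ L₀(δ)`: `δ/2`-separation at `q` (for `d a ≥ 2` directly, for `d < 2 / δ` the shift is `d log 4 ≤ δ L / 2`), `embBound_V (δ / 2) ε`, `lam / (2 l) ≤ a / 2`. For `L < L₀` or `q > 1 / e`: `thresholds_uniform` with `ε = 1 / 2`. -/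
theorem thresholds_V (δ ε : ℝ) (hδ : 0 < δ) (hδ1 : δ ≤ 1) (hε : 0 < ε) :
    ∃ C : ℝ, 0 < C ∧ ∀ n : ℕ, 3 ≤ n → ∀ (V : Type) [Fintype V] (H : SimpleGraph V),
      Fintype.card V ≤ n → H ≠ ⊥ →
      ∀ a : ℝ, a = Real.log (1 / max (pE n H) (1 / (n : ℝ))) / Real.log n →
      δ ≤ a → (∀ d : ℕ, 2 ≤ d → δ ≤ |(d : ℝ) * a - 1|) →
      pTilde n H ≤ C * (max (pE n H) (1 / (n : ℝ)) * (Real.log n) ^ (a / 2 + ε) + Real.log n / n) ∧
      pc n H ≤ C * Real.log n *
        (max (pE n H) (1 / (n : ℝ)) * (Real.log n) ^ (a / 2 + ε) + Real.log n / n) := by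
  obtain ⟨C₁, l₀, hC₁, hl₀, hemb⟩ := embBound_V (δ / 2) ε (by positivity) (by linarith) hε
  obtain ⟨Cu, hCu, hunif⟩ := thresholds_uniform (1 / 2) (by norm_num)
  obtain ⟨θ, hθ⟩ : ∃ θ : ℝ, θ = Real.log 4 := ⟨_, rfl⟩
  have hθ0 : 0 ≤ θ := by
    rw [hθ]
    exact Real.log_nonneg (by norm_num)
  obtain ⟨L₀, hL₀⟩ : ∃ L₀ : ℝ, L₀ = l₀ + 4 * θ / δ ^ 2 + 1 := ⟨_, rfl⟩
  have hδ2 : 0 < δ ^ 2 := by positivity
  have hθδ : 0 ≤ 4 * θ / δ ^ 2 := by positivity
  have hL₀1 : 1 ≤ L₀ := by rw [hL₀]; linarith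
  obtain ⟨A, hA⟩ : ∃ A : ℝ, A = 4 * C₁ * (2 : ℝ) ^ ((1 : ℝ) / 2 + ε) := ⟨_, rfl⟩
  have hA0 : 0 < A := by rw [hA]; positivity
  obtain ⟨C, hC⟩ : ∃ C : ℝ, C = 512 * A + Cu * L₀ + 4 * Real.exp 1 + 1 := ⟨_, rfl⟩
  have hCL : 0 < Cu * L₀ := by positivity
  have hCe : 0 < Real.exp 1 := Real.exp_pos _
  have hC0 : 0 < C := by rw [hC]; linarith
  refine ⟨C, hC0, ?_⟩
  intro n hn V _ H hV hH a ha hδa hsep
  obtain ⟨ι⟩ : Nonempty (V ↪ Fin n) :=
    Function.Embedding.nonempty_of_card_le (by simpa using hV)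
  have hn2 : 2 ≤ n := by omega
  have hnR : (3 : ℝ) ≤ n := by exact_mod_cast hn
  have hn0 : (0 : ℝ) < n := by linarith
  obtain ⟨x, hx⟩ : ∃ x, x = Real.log n := ⟨_, rfl⟩
  rw [← hx] at ha ⊢
  have hx1 : 1 ≤ x := by
    rw [hx, Real.le_log_iff_exp_le hn0]
    have := Real.exp_one_lt_d9
    linarith
  have hx0 : 0 < x := by linarith
  have hE0 := pE_pos hn2 hV hH
  have hu := hunif n hn V H hV hH
  rw [← hx] at hu
  obtain ⟨P, hP⟩ : ∃ P, P = max (pE n H) (1 / (n : ℝ)) := ⟨_, rfl⟩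
  rw [← hP] at ha hu ⊢
  have hP0 : 0 < P := by rw [hP]; exact lt_max_of_lt_left hE0
  have hPE : pE n H ≤ P := by rw [hP]; exact le_max_left _ _
  have hPn : 1 / (n : ℝ) ≤ P := by rw [hP]; exact le_max_right _ _
  have hax : a * x = Real.log (1 / P) := by
    rw [ha]
    field_simp
  have ha1 : a ≤ 1 := by
    rw [ha, div_le_one hx0, hx]
    apply Real.log_le_log (by positivity)
    rw [div_le_iff₀ hP0]
    rw [div_le_iff₀ hn0] at hPn
    linarith
  have ha0 : 0 < a := by linarith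
  have hlt : pE n H < 2 * pE n H := by linarith
  obtain ⟨p, ⟨h0, h1, hp⟩, hp2⟩ := exists_lt_of_csInf_lt (pE_set_nonempty (H := H) ι) hlt
  have hpE : pE n H ≤ p := csInf_le ⟨0, fun _ hy => hy.1⟩ ⟨h0, h1, hp⟩
  have hp0 : 0 < p := by linarith
  have hG₀ : GoodDensity n (2 * p) H := good_of_subgraphs h0 h1 hp
  obtain ⟨q, hq⟩ : ∃ q, q = max (2 * p) (1 / (n : ℝ)) := ⟨_, rfl⟩
  have hq0 : 0 < q := by rw [hq]; exact lt_max_of_lt_right (by positivity)
  have hq4 : q ≤ 4 * P := by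
    rw [hq]
    apply max_le
    · linarith
    · linarith
  have hqn : 1 / (n : ℝ) ≤ q := by rw [hq]; exact le_max_right _ _
  have hPq : P ≤ q := by
    rw [hP]
    apply max_le
    · have : 2 * p ≤ q := by rw [hq]; exact le_max_left _ _
      linarith
    · exact hqn
  have hG : GoodDensity n q H := good_mono (by positivity) (by rw [hq]; exact le_max_left _ _) hG₀
  obtain ⟨Y, hY⟩ : ∃ Y, Y = x ^ (a / 2 + ε) := ⟨_, rfl⟩
  have hY1 : 1 ≤ Y := by
    rw [hY]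
    exact Real.one_le_rpow hx1 (by positivity)
  rw [← hY]
  by_cases hcase : x < L₀ ∨ Real.exp (-1) < q
  · exact small_case hV hn0 hx1 hP0 hY1 hC0 hCu hL₀1 (by rw [hC]; linarith) hq4 hu hcase
  · push Not at hcase
    obtain ⟨hxL, hqe⟩ := hcase
    have hlamq : 1 ≤ - Real.log q := by
      have := Real.log_le_log hq0 hqe
      rw [Real.log_exp] at this
      linarith
    have hlamx : - Real.log q ≤ x := by
      have h2 : Real.log (1 / (n : ℝ)) ≤ Real.log q := Real.log_le_log (by positivity) hqn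
      rw [one_div, Real.log_inv, ← hx] at h2
      linarith
    have hs : Std n q x (- Real.log q) :=
      { n1 := by omega
        l_eq := hx
        lam_eq := rfl
        q0 := hq0
        l1 := hx1
        lam1 := hlamq
        lam_le := hlamx }
    obtain ⟨lam, hlam⟩ : ∃ lam, lam = - Real.log q := ⟨_, rfl⟩
    rw [← hlam] at hs hlamq hlamx
    have hlamhi : lam ≤ a * x := by
      rw [hax, hlam, one_div, Real.log_inv]
      have := Real.log_le_log hP0 hPq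
      linarith
    have hlamlo : a * x - θ ≤ lam := by
      rw [hax, hlam, hθ, one_div, Real.log_inv]
      have h2 := Real.log_le_log hq0 hq4
      rw [Real.log_mul (by norm_num) hP0.ne'] at h2
      linarith
    have hθL : 4 * θ ≤ δ ^ 2 * x := by
      have h2 : 4 * θ / δ ^ 2 ≤ x := by
        rw [hL₀] at hxL
        linarith
      rw [div_le_iff₀ hδ2] at h2
      linarith [mul_comm x (δ ^ 2)]
    have hl₀x : l₀ ≤ x := by
      rw [hL₀] at hxL
      linarith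
    have hδθ : δ * x ≤ a * x := mul_le_mul_of_nonneg_right hδa hx0.le
    have hδ2x : δ ^ 2 * x ≤ δ * x := by
      have h1 : δ ^ 2 ≤ δ := by nlinarith
      exact mul_le_mul_of_nonneg_right h1 hx0.le
    have hδx0 : 0 < δ * x := by positivity
    have hsep1 : (δ / 2) * x ≤ lam := by
      have h2 : (δ / 2) * x = δ * x / 2 := by ring
      rw [h2]
      linarith
    have hsep2 : ∀ d : ℕ, 2 ≤ d → (δ / 2) * x ≤ |(d : ℝ) * lam - x| := fun d hd =>
      sep_num hδ hδ1 hδa hθ0 hx0 hθL hlamlo hlamhi (hsep d hd) hd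
    have hΘ := hemb n q x lam V H hs hG hV hl₀x hsep1 hsep2
    exact main_case hn2 hV hH hn0 hx hx1 hP0 hY hY1 ha0 ha1 hε hq0 hq4 hC₁ hA
      (by rw [hC]; linarith) (by rw [hC]; linarith) hlamq hlamhi hΘ

end Vale.Agent.Lib.P064M
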