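import Vale.Agent.Lib.P064M.Cod
import Vale.Agent.Lib.P064T.LevelB

/-!
Part L1: the base of the level recursion in vertex form, `R ^ |Q| exp (c e_Q)`.
-/

open Finset

namespace Vale.Agent.Lib.P064M

open Vale.Agent.Lib.P064 Vale.Agent.Lib.P064E Vale.Agent.Lib.P064U Vale.Agent.Lib.P064T
open scoped Classical

variable {V α : Type} [Fintype V] [Fintype α] {F : SimpleGraph α} {H : SimpleGraph V} {n : ℕ}
  {q l lam : ℝ} {K C : Finset α} {d₀ : ℕ} {c₀ : ℝ}

/-- The base, for the level bound `LevelBound` of `P064E.Defs` with `B = R`. `exists_maxMatch` gives `M` on `Q`, `k = |Q| = 2 |M| + |W|`.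
`card_restrictions_singles`: restrictions to `Q` at most `c₀^|W|` times those to `vs M`. `card_restrictions_le` and `card_image_sets_exp` on `vs M`
(`IsMaxMatch.isMatching_vs`, `pieces_vs`, `M ⊆ tch F K Q`): at most `(12 l)^|M| exp e * (2 |M|)^(2 |M|)`, `2 |M| ≤ s`. So at most
`(12 l s^2)^|M| c₀^|W| exp e ≤ R^(2 |M|) R^|W| exp e`. -/
theorem level_baseV (hG : GoodDensity n q H) (hs : Std n q l lam) (hb : MinBlock F l lam K C)
    (hcod : CodPar l lam d₀ c₀) (hdeg : ∀ y ∈ C, d₀ ≤ (K.filter (F.Adj y)).card)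
    {s : ℕ} {R : ℝ} (hs1 : 1 ≤ s) (hR1 : 1 ≤ R) (hRc : c₀ ≤ R) (hR : 12 * l * (s : ℝ) ^ 2 ≤ R ^ 2) :
    LevelBound F H l K C s R 1 := by
  intro Q hQC hQne hQs S U hemb hag hUH hSU hUcard
  have hl1 := hs.l1
  have hl0 : 0 < l := by linarith
  have hQK : Q ⊆ K := hQC.trans hb.sub
  have he0 : (0 : ℝ) ≤ ((tch F K Q).card : ℝ) := Nat.cast_nonneg _
  obtain ⟨M, hM⟩ := exists_maxMatch F Q
  have hMm : IsMatching F (vs M) M := IsMaxMatch.isMatching_vs hM
  have hMQ : IsMatching F Q M := ⟨hM.sub, hM.disj⟩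
  have hinjS : ∀ φ ∈ S, Function.Injective φ := fun φ hφ => (hemb φ hφ).1
  have hUm : ∀ φ ∈ S, ∀ e ∈ M, Sym2.map φ e ∈ U := by
    intro φ hφ e he
    apply hSU φ hφ
    exact Finset.mem_image_of_mem _ (hMQ.subset_tch hQK he)
  have hWv : ∀ φ ∈ S, ∀ w ∈ vs M \ vs M, φ w ∈ vs U := by
    intro φ hφ w hw
    simp at hw
  have hsets := card_image_sets_exp hMm S U he0 hl0.le hinjS hUm hWv hUcard
  rw [pieces_vs] at hsets
  have hrest := card_restrictions_le S (vs M) hinjS
  have hrest' : ((S.image (proj (vs M))).card : ℝ) ≤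
      ((S.image (fun φ => (vs M).image φ)).card : ℝ) * ((vs M).card : ℝ) ^ (vs M).card := by
    exact_mod_cast hrest
  have hsing := card_restrictions_singles hG hs hcod hQK hM (fun y hy => hdeg y (hQC hy)) S hemb hag
  have hvsQ : vs M ⊆ Q := hMQ.vs_subset
  have hcardvs : (vs M).card = 2 * M.card := hMm.card_vs
  have hcardQ : Q.card = 2 * M.card + (Q \ vs M).card := hMQ.card_eq
  have hvs_s : (vs M).card ≤ s := (Finset.card_le_card hvsQ).trans hQs
  have hc00 : 0 ≤ c₀ := by linarith [hcod.one]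
  have hR0 : 0 < R := by linarith
  -- the numeric part for the matching
  have hnum := base_numeric (g := M.card) (k := (vs M).card) (s := s) (m := 2 * M.card)
    (e := ((tch F K Q).card : ℝ)) hl0.le hR1 hs1 hR hvs_s (by omega) le_rfl
  have hstep : ((S.image (proj (vs M))).card : ℝ) ≤
      R ^ (2 * M.card) * Real.exp ((tch F K Q).card : ℝ) := by
    refine hrest'.trans (le_trans ?_ hnum)
    exact mul_le_mul_of_nonneg_right hsets (by positivity)
  have hc : c₀ ^ (Q \ vs M).card ≤ R ^ (Q \ vs M).card := pow_le_pow_left₀ hc00 hRc _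
  rw [one_mul]
  calc ((S.image (proj Q)).card : ℝ)
      ≤ c₀ ^ (Q \ vs M).card * ((S.image (proj (vs M))).card : ℝ) := hsing
    _ ≤ R ^ (Q \ vs M).card * (R ^ (2 * M.card) * Real.exp ((tch F K Q).card : ℝ)) :=
        mul_le_mul hc hstep (by positivity) (by positivity)
    _ = R ^ Q.card * Real.exp ((tch F K Q).card : ℝ) := by
        rw [hcardQ, pow_add]
        ring

end Vale.Agent.Lib.P064M
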