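import Vale.Agent.Lib.P064M.LevelBV
import Vale.Agent.Lib.P064M.TrunkCard
import Vale.Agent.Lib.P064T.LevelS

/-!
Part L2: the step of the level recursion in vertex form.
-/

open Finset

namespace Vale.Agent.Lib.P064M

open Vale.Agent.Lib.P064 Vale.Agent.Lib.P064E Vale.Agent.Lib.P064U Vale.Agent.Lib.P064T
open scoped Classical

variable {V α : Type} [Fintype V] [Fintype α] {F : SimpleGraph α} {H : SimpleGraph V} {n : ℕ}
  {q l lam : ℝ} {K C : Finset α} {d₀ : ℕ} {c₀ : ℝ}


/-- Restrictions to the trunk in vertex form. `trunk_card` gives `M` on `Q₀`, `|Q₀| ≤ 2 |M| + |Lf|`; image sets and `forest_restrictions_sets`. -/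
lemma trunk_countV (hG : GoodDensity n q H) (hs : Std n q l lam) (hb : MinBlock F l lam K C)
    (h2 : 2 ≤ C.card) {s s' : ℕ} (hss : Real.log s' ≤ s) {R : ℝ}
    (hR1 : 1 ≤ R) (hR : 12 * l ≤ R ^ 2) (hRs : R ≤ Real.exp s)
    {Q Q₀ Lf : Finset α} {p : α → α} (hQC : Q ⊆ C) (hQne : Q.Nonempty) (hQs' : Q.card ≤ s')
    (hQ₀Q : Q₀ ⊆ Q) (hlf : Lf ⊆ Q₀)
    (hpadj : ∀ x ∈ Q₀, p x = x ∨ (p x ∈ Q₀ ∧ F.Adj x (p x)))
    (hreach : ∀ T : Finset α, Lf ⊆ T → (∀ x ∈ T, x ∈ Q₀ → p x ∈ T) → Q₀ ⊆ T)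
    (hLcard : s * Lf.card ≤ Q.card)
    (S : Finset (α → V)) (U : Finset (Sym2 V))
    (hemb : ∀ φ ∈ S, IsEmb F H φ) (hUH : ∀ e ∈ U, e ∈ H.edgeSet)
    (hSU : ∀ φ ∈ S, tchIm F K Q φ ⊆ U)
    (hUcard : (U.card : ℝ) ≤ 3 * ((tch F K Q).card : ℝ) * l) :
    ((S.image (proj Q₀)).card : ℝ) ≤
      R ^ Q₀.card * Real.exp (9 * ((tch F K Q).card : ℝ)) := by
  have hl1 := hs.l1
  have hl0 : 0 < l := by linarith
  have hR0 : 0 < R := by linarith
  have hQK : Q ⊆ K := hQC.trans hb.sub
  set e : ℝ := ((tch F K Q).card : ℝ) with he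
  have he0 : 0 ≤ e := Nat.cast_nonneg _
  have hk1 : 1 ≤ Q.card := Finset.card_pos.2 hQne
  have hke : (Q.card : ℝ) ≤ 2 * e := hb.card_le h2 hQC hl1 hs.lam_le
  have hkl : (Q.card : ℝ) * l ≤ 2 * e * (lam - 1) := hb.card_mul_le h2 hQC
  have ht : Q₀.card ≤ Q.card := Finset.card_le_card hQ₀Q
  have hclosed : ∀ x ∈ Q₀, p x ∈ Q₀ := by
    intro x hx
    rcases hpadj x hx with h | h
    · rw [h]
      exact hx
    · exact h.1
  have hinj : ∀ f ∈ S, Set.InjOn f Q₀ := fun f hf => (hemb f hf).1.injOn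
  have hedgeQ : ∀ f ∈ S, ∀ x y, x ∈ Q → y ∈ K → F.Adj x y → s(f x, f y) ∈ U := by
    intro f hf x y hx hy hxy
    apply hSU f hf
    exact Finset.mem_image.2 ⟨s(x, y), (mem_tch_pair hQK).2 ⟨hxy, hQK hx, hy, Or.inl hx⟩, rfl⟩
  have hvs : ∀ f ∈ S, ∀ x ∈ Q₀, f x ∈ vs U := by
    intro f hf x hx
    obtain ⟨y, hy, hxy⟩ := hb.exists_inner h2 (hQC (hQ₀Q hx))
    have h3 := hedgeQ f hf x y (hQ₀Q hx) (hb.sub hy) hxy
    exact Finset.mem_biUnion.2 ⟨_, h3, by simp⟩
  have hedge : ∀ f ∈ S, ∀ x ∈ Q₀, p x ≠ x → s(f x, f (p x)) ∈ U := by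
    intro f hf x hx hne
    rcases hpadj x hx with h | h
    · exact absurd h hne
    · exact hedgeQ f hf x (p x) (hQ₀Q hx) (hQK (hQ₀Q h.1)) h.2
  have hfor := forest_restrictions_sets hG hs hclosed hlf hreach U hUH S hinj hedge
  obtain ⟨M, hM, hMg⟩ := trunk_card (F := F) Q₀ Lf p hlf hpadj hreach
  have hUM : ∀ φ ∈ S, ∀ e' ∈ M, Sym2.map φ e' ∈ U := by
    intro φ hφ e' he'
    apply hSU φ hφ
    exact Finset.mem_image_of_mem _ (tch_mono hQ₀Q hQK (hM.subset_tch (hQ₀Q.trans hQK) he'))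
  have hsets := card_image_sets_exp hM S U he0 hl0.le (fun φ hφ => (hemb φ hφ).1) hUM
    (fun φ hφ w hw => hvs φ hφ w (Finset.mem_sdiff.1 hw).1) hUcard
  have hsrc := sources_bound' (t := Q₀.card) ht hk1 hQs' hLcard hss
  have hfx := forest_exp_bound' hl0 hs.lam1 ht he0 hkl
  have hexpk : Real.exp (Q.card : ℝ) ≤ Real.exp (2 * e) := Real.exp_le_exp.2 hke
  set g := pieces Q₀ M with hg
  have hgcard : 2 * g ≤ Q₀.card + Lf.card := by
    have h3 := hM.card_eq
    rw [hg]
    unfold pieces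
    omega
  have h12 : (12 * l) ^ g ≤ (R ^ 2) ^ g := pow_le_pow_left₀ (by positivity) hR g
  have hpow : (R ^ 2) ^ g ≤ R ^ Q₀.card * R ^ Lf.card := by
    rw [← pow_mul, ← pow_add]
    exact pow_le_pow_right₀ hR1 (by omega)
  have hRL : R ^ Lf.card ≤ Real.exp (2 * e) := by
    have h3 : R ^ Lf.card ≤ (Real.exp s) ^ Lf.card :=
      pow_le_pow_left₀ (by positivity) hRs _
    refine h3.trans ?_
    rw [← Real.exp_nat_mul]
    refine Real.exp_le_exp.2 ?_
    have h4 : ((Lf.card : ℝ)) * (s : ℝ) ≤ Q.card := by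
      have : Lf.card * s ≤ Q.card := by rw [mul_comm]; exact hLcard
      exact_mod_cast this
    linarith
  have hRi : 0 ≤ R ^ Q₀.card := by positivity
  calc ((S.image (proj Q₀)).card : ℝ)
      ≤ ((S.image (fun f => Q₀.image f)).card : ℝ) * (Q₀.card : ℝ) ^ Lf.card *
          Real.exp (2 * (Q₀.card : ℝ) * l / lam) := hfor
    _ ≤ (((12 * l) ^ g * Real.exp e) * Real.exp (2 * e)) * Real.exp (4 * e) := by
        apply mul_le_mul _ hfx (Real.exp_pos _).le (by positivity)
        exact mul_le_mul hsets (hsrc.trans hexpk) (by positivity) (by positivity)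
    _ ≤ (((R ^ Q₀.card * Real.exp (2 * e)) * Real.exp e) * Real.exp (2 * e)) *
          Real.exp (4 * e) := by
        have h5 : (12 * l) ^ g ≤ R ^ Q₀.card * Real.exp (2 * e) :=
          h12.trans (hpow.trans (mul_le_mul_of_nonneg_left hRL hRi))
        gcongr
    _ = R ^ Q₀.card * Real.exp (9 * e) := by
        rw [show (9 : ℝ) * e = 2 * e + e + 2 * e + 4 * e by ring, Real.exp_add, Real.exp_add,
          Real.exp_add]
        ring

/-- The recursion step in vertex form. `exists_treeDec` with `s₀ = s`; `trunk_countV`; the parts as in `level_stepT`. -/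
theorem level_stepV (hG : GoodDensity n q H) (hs : Std n q l lam) (hb : MinBlock F l lam K C)
    (h2 : 2 ≤ C.card) {s s' : ℕ} (hs1 : 1 ≤ s) (hss : Real.log s' ≤ s) {R c : ℝ}
    (hR1 : 1 ≤ R) (hR : 12 * l ≤ R ^ 2) (hRs : R ≤ Real.exp s) (hc : 0 ≤ c)
    (hlev : LevelBound F H l K C s R c) :
    LevelBound F H l K C s' R (c + 9) := by
  intro Q hQC hQne hQs' S U hemb hag hUH hSU hUcard
  have hl1 := hs.l1
  have hl0 : 0 < l := by linarith
  have hR0 : 0 < R := by linarith
  have hQK : Q ⊆ K := hQC.trans hb.sub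
  set e : ℝ := ((tch F K Q).card : ℝ) with he
  have he0 : 0 ≤ e := Nat.cast_nonneg _
  by_cases hQs : Q.card ≤ s
  · refine (hlev Q hQC hQne hQs S U hemb hag hUH hSU hUcard).trans ?_
    have : Real.exp (c * e) ≤ Real.exp ((c + 9) * e) := by
      apply Real.exp_le_exp.2
      nlinarith
    exact mul_le_mul_of_nonneg_left this (by positivity)
  push Not at hQs
  obtain ⟨Q₀, Lf, p, parts, hd⟩ := exists_treeDec F Q s hs1
  have hQ₀Q : Q₀ ⊆ Q := hd.sub
  have hQ₀count := trunk_countV hG hs hb h2 hss hR1 hR hRs hQC hQne hQs' hQ₀Q hd.lf_sub hd.padj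
    hd.reach hd.lf_card S U hemb hUH hSU hUcard
  -- the parts
  have key : ∀ Pp : Finset (Finset α), Pp ⊆ parts →
      ((S.image (proj (Q₀ ∪ Pp.biUnion id))).card : ℝ) ≤
        (∏ P ∈ Pp, (R ^ P.card * Real.exp (c * ((tch F K P).card : ℝ)))) *
          (S.image (proj Q₀)).card := by
    intro Pp
    induction Pp using Finset.induction_on with
    | empty =>
      intro _
      simp
    | insert P Pp' hP ih =>
      intro hsub
      have hPparts : P ∈ parts := hsub (Finset.mem_insert_self _ _)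
      have ih' := ih ((Finset.subset_insert _ _).trans hsub)
      obtain ⟨hPsub, hPne, hPcard⟩ := hd.parts_sub P hPparts
      have hPQ : P ⊆ Q := hPsub.trans Finset.sdiff_subset
      have hPK : P ⊆ K := hPQ.trans hQK
      have hPC' : P ⊆ C := hPQ.trans hQC
      have hPneC : P ≠ C := by
        rintro rfl
        have := Finset.card_le_card hQC
        omega
      set D := Q₀ ∪ Pp'.biUnion id with hDdef
      have hD' : Q₀ ∪ (insert P Pp').biUnion id = D ∪ P := by
        ext x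
        simp only [hDdef, Finset.mem_union, Finset.mem_biUnion, Finset.mem_insert, id]
        constructor
        · rintro (h | ⟨P', h1 | h1, h2⟩)
          · exact Or.inl (Or.inl h)
          · exact Or.inr (h1 ▸ h2)
          · exact Or.inl (Or.inr ⟨P', h1, h2⟩)
        · rintro ((h | ⟨P', h1, h2⟩) | h)
          · exact Or.inl h
          · exact Or.inr ⟨P', Or.inr h1, h2⟩
          · exact Or.inr ⟨P, Or.inl rfl, h⟩
      rw [hD', Finset.prod_insert hP]
      have hBP : 0 ≤ R ^ P.card * Real.exp (c * ((tch F K P).card : ℝ)) := by positivity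
      have hstep := card_image_proj_step_real S (Finset.subset_union_left : D ⊆ D ∪ P) hBP ?_
      · calc ((S.image (proj (D ∪ P))).card : ℝ)
            ≤ (R ^ P.card * Real.exp (c * ((tch F K P).card : ℝ))) *
                (S.image (proj D)).card := hstep
          _ ≤ (R ^ P.card * Real.exp (c * ((tch F K P).card : ℝ))) *
              ((∏ P ∈ Pp', (R ^ P.card * Real.exp (c * ((tch F K P).card : ℝ)))) *
                (S.image (proj Q₀)).card) := mul_le_mul_of_nonneg_left ih' hBP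
          _ = _ := by ring
      · intro φ₀ hφ₀
        set fib := S.filter (fun φ => proj D φ = proj D φ₀) with hfib
        have hfibS : fib ⊆ S := Finset.filter_subset _ _
        have hfibD : ∀ φ ∈ fib, ∀ x ∈ D, φ x = φ₀ x := fun φ hφ x hx =>
          proj_eq_apply hx (Finset.mem_filter.1 hφ).2
        have hagD : ∀ φ ∈ fib, ∀ φ' ∈ fib, ∀ x ∈ D, φ x = φ' x := fun φ hφ φ' hφ' x hx => by
          rw [hfibD φ hφ x hx, hfibD φ' hφ' x hx]
        have h1 := card_image_proj_union_le' (P := P) fib hagD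
        have hembf : ∀ φ ∈ fib, IsEmb F H φ := fun φ hφ => hemb φ (hfibS hφ)
        have hagatt : ∀ φ ∈ fib, ∀ φ' ∈ fib, ∀ x ∈ att F K P, φ x = φ' x := by
          intro φ hφ φ' hφ' x hx
          obtain ⟨hxK, hxP, c', hc', hadj⟩ := mem_att.1 hx
          by_cases hxQ : x ∈ Q
          · by_cases hxQ₀ : x ∈ Q₀
            · exact hagD φ hφ φ' hφ' x (Finset.mem_union_left _ hxQ₀)
            · exfalso
              obtain ⟨P', hP', hxP'⟩ := hd.parts_cover x (Finset.mem_sdiff.2 ⟨hxQ, hxQ₀⟩)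
              by_cases hPP' : P = P'
              · exact hxP (hPP' ▸ hxP')
              · exact hd.parts_nonadj P hPparts P' hP' hPP' c' hc' x hxP' hadj
          · refine hag φ (hfibS hφ) φ' (hfibS hφ') x ?_
            exact mem_att.2 ⟨hxK, hxQ, c', hPQ hc', hadj⟩
        have hU' : ∀ e ∈ fib.biUnion (tchIm F K P), e ∈ H.edgeSet := fun e he =>
          union_edges fib hembf hPK ∅ (by simp) e (by simpa using he)
        have hcard := local_union hG hs hb hPC' hPne hPneC fib hembf hagatt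
        have hcard3 : ((fib.biUnion (tchIm F K P)).card : ℝ) ≤
            3 * ((tch F K P).card : ℝ) * l := by
          have h3 : (0 : ℝ) ≤ ((tch F K P).card : ℝ) * l := by positivity
          linarith
        have h2' := hlev P hPC' hPne hPcard fib (fib.biUnion (tchIm F K P)) hembf
          hagatt hU' (fun φ hφ => Finset.subset_biUnion_of_mem (tchIm F K P) hφ) hcard3
        exact le_trans (by exact_mod_cast h1) h2'
  have hQeq : Q₀ ∪ parts.biUnion id = Q := by
    ext x
    simp only [Finset.mem_union, Finset.mem_biUnion, id]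
    constructor
    · rintro (h | ⟨P, hP, hx⟩)
      · exact hQ₀Q h
      · exact Finset.sdiff_subset ((hd.parts_sub P hP).1 hx)
    · intro hx
      by_cases hx0 : x ∈ Q₀
      · exact Or.inl hx0
      · exact Or.inr (hd.parts_cover x (Finset.mem_sdiff.2 ⟨hx, hx0⟩))
  have hmain := key parts (Finset.Subset.refl _)
  rw [hQeq] at hmain
  have hcardsum : ∑ P ∈ parts, P.card = Q.card - Q₀.card := by
    have h3 : (parts.biUnion id).card = ∑ P ∈ parts, (id P).card :=
      Finset.card_biUnion (fun P hP P' hP' hne => hd.parts_disj P hP P' hP' hne)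
    have h4 : parts.biUnion id = Q \ Q₀ := by
      ext x
      simp only [Finset.mem_biUnion, id]
      constructor
      · rintro ⟨P, hP, hx⟩
        exact (hd.parts_sub P hP).1 hx
      · exact hd.parts_cover x
    rw [h4, Finset.card_sdiff_of_subset hQ₀Q] at h3
    simpa using h3.symm
  have htchsum := eIn_add_sum_tch_parts_le (F := F) hQK hQ₀Q
    (fun P hP => (hd.parts_sub P hP).1) hd.parts_disj hd.parts_nonadj
  have htchsum' : ∑ P ∈ parts, ((tch F K P).card : ℝ) ≤ e := by
    rw [he]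
    have h3 : ∑ P ∈ parts, (tch F K P).card ≤ (tch F K Q).card := by omega
    exact_mod_cast h3
  have hprod : (∏ P ∈ parts, (R ^ P.card * Real.exp (c * ((tch F K P).card : ℝ)))) ≤
      R ^ (Q.card - Q₀.card) * Real.exp (c * e) := by
    rw [Finset.prod_mul_distrib, Finset.prod_pow_eq_pow_sum, hcardsum, ← Real.exp_sum,
      ← Finset.mul_sum]
    gcongr
  have hcard_le : Q₀.card ≤ Q.card := Finset.card_le_card hQ₀Q
  calc ((S.image (proj Q)).card : ℝ)
      ≤ (∏ P ∈ parts, (R ^ P.card * Real.exp (c * ((tch F K P).card : ℝ)))) *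
          (S.image (proj Q₀)).card := hmain
    _ ≤ (R ^ (Q.card - Q₀.card) * Real.exp (c * e)) * (R ^ Q₀.card * Real.exp (9 * e)) := by
        apply mul_le_mul hprod hQ₀count (Nat.cast_nonneg _) (by positivity)
    _ = R ^ Q.card * Real.exp ((c + 9) * e) := by
        have h3 : R ^ Q.card = R ^ (Q.card - Q₀.card) * R ^ Q₀.card := by
          rw [← pow_add]
          congr 1
          omega
        rw [h3, show (c + 9) * e = c * e + 9 * e by ring, Real.exp_add]
        ring

end Vale.Agent.Lib.P064M
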