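import Vale.Agent.Lib.P064M.LevelSV
import Vale.Agent.Lib.P064T.LevelTop

/-!
Part L3: three levels in vertex form.
-/

open Finset

namespace Vale.Agent.Lib.P064M

open Vale.Agent.Lib.P064 Vale.Agent.Lib.P064E Vale.Agent.Lib.P064U Vale.Agent.Lib.P064T
open scoped Classical

variable {V α : Type} [Fintype V] [Fintype α] {F : SimpleGraph α} {H : SimpleGraph V} {n : ℕ}
  {q l lam : ℝ} {K C : Finset α} {d₀ : ℕ} {c₀ : ℝ}

/-- Three levels `scaleT l → max (scaleT l) ⌈l⌉₊ → n`, as `level_topT` of `P064T.LevelTop` with `level_baseV`, `level_stepV`. -/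
theorem level_topV (hG : GoodDensity n q H) (hs : Std n q l lam) (hb : MinBlock F l lam K C)
    (h2 : 2 ≤ C.card) (hcod : CodPar l lam d₀ c₀) (hdeg : ∀ y ∈ C, d₀ ≤ (K.filter (F.Adj y)).card)
    {R : ℝ} (hR1 : 1 ≤ R) (hRc : c₀ ≤ R) (hRb : baseT l ≤ R ^ 2) (hRe : R ≤ Real.exp (scaleT l)) :
    LevelBound F H l K C n R 19 := by
  have hl := hs.l1
  obtain ⟨hb1, hb12, _, _⟩ := baseT_facts hl
  have hs10 : (10 : ℝ) ≤ scaleT l := scaleT_ge_ten l
  have hs1 : 1 ≤ scaleT l := by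
    have : (1 : ℝ) ≤ scaleT l := by linarith
    exact_mod_cast this
  have h12 : 12 * l ≤ R ^ 2 := hb12.trans hRb
  have hbase : LevelBound F H l K C (scaleT l) R 1 :=
    level_baseV hG hs hb hcod hdeg hs1 hR1 hRc hRb
  have hstep1 : LevelBound F H l K C (max (scaleT l) ⌈l⌉₊) R (1 + 9) :=
    level_stepV hG hs hb h2 hs1 (log_le_scaleT hl) hR1 h12 hRe (by norm_num) hbase
  have hs1' : 1 ≤ max (scaleT l) ⌈l⌉₊ := hs1.trans (le_max_left _ _)
  have hmax1 : (⌈l⌉₊ : ℝ) ≤ ((max (scaleT l) ⌈l⌉₊ : ℕ) : ℝ) := by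
    exact_mod_cast le_max_right _ _
  have hmax2 : (scaleT l : ℝ) ≤ ((max (scaleT l) ⌈l⌉₊ : ℕ) : ℝ) := by
    exact_mod_cast le_max_left _ _
  have hstep2 : LevelBound F H l K C n R (1 + 9 + 9) :=
    level_stepV hG hs hb h2 hs1'
      (by
        rw [← hs.l_eq]
        exact (Nat.le_ceil l).trans hmax1)
      hR1 h12
      (hRe.trans (Real.exp_le_exp.2 hmax2))
      (by norm_num) hstep1
  have h19 : (1 : ℝ) + 9 + 9 = 19 := by norm_num
  rw [h19] at hstep2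
  exact hstep2

end Vale.Agent.Lib.P064M
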