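import Vale.Agent.Lib.P064M.OverlapV
import Vale.Agent.Lib.P064T.BlockBasic

/-!
Parameters for one block in vertex form.
-/

open Finset

namespace Vale.Agent.Lib.P064M

open Vale.Agent.Lib.P064 Vale.Agent.Lib.P064E Vale.Agent.Lib.P064U Vale.Agent.Lib.P064T
open scoped Classical

variable {V α : Type} [Fintype V] [Fintype α] {F : SimpleGraph α} {H : SimpleGraph V} {n : ℕ}
  {q l lam : ℝ} {K C : Finset α} {d₀ : ℕ} {c₀ : ℝ}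

/-- The numeric parameters for the bound of one block. `A` is the per-edge loss `R^(lam / l)`. -/
structure BlockParV (n : ℕ) (q l lam : ℝ) (b₁ : ℕ) (R A T E₁ Λ : ℝ) : Prop where
  R1 : 1 ≤ R
  A1 : 1 ≤ A
  T1 : 1 ≤ T
  E₁1 : 1 ≤ E₁
  b₁1 : 1 ≤ b₁
  lT : l ≤ T ^ b₁
  B1 : 6 * l * (1 + Real.log l) ≤ R ^ 2
  RA : ∀ b m : ℕ, (b : ℝ) * l ≤ (m : ℝ) * lam → R ^ b ≤ A ^ m
  RE : ∀ b m : ℕ, 1 ≤ m → m < b₁ → (b : ℝ) * l - (m : ℝ) * lam < Real.log ((m : ℝ) * l) →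
    R ^ b ≤ E₁ * A ^ m
  Λ1 : Real.exp (19 + 4) * ((b₁ : ℝ) ^ (2 * b₁)) * E₁ * A * T ≤ Λ
  Λ2 : l / ((n : ℝ) * q) ≤ Λ
  single : ∀ m : ℕ, 2 ≤ m → (m : ℝ) * (lam - 1) ≤ l →
    1 ≤ ((n : ℝ) * q ^ m) * Real.exp (m : ℝ) → (m : ℝ) * l ≤ (n : ℝ) * q ^ m

/-- Case C numerics. Restrictions at most `(2 N)^g (2 g)^(2 g) c₀^w` with `2 g + w = b`, `2 N ≤ m^2 R^2`, `c₀ ≤ R`, `b ≤ m < b₁`, `R^b ≤ E₁ A^m`, `1 ≤ x e^m`:
at most `m^(4 g) R^b ≤ b₁^(2 b₁) E₁ A^m ≤ x (e b₁^(2 b₁) E₁ A)^m ≤ x Λ^m`. -/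
lemma num_case_CV {m b b₁ g w : ℕ} {x N R A T E₁ c₀ Λ : ℝ} (hm : 1 ≤ m) (hbm : b ≤ m) (hx : 0 ≤ x)
    (hxm : 1 ≤ x * Real.exp (m : ℝ)) (hR1 : 1 ≤ R) (hA1 : 1 ≤ A) (hT1 : 1 ≤ T) (hE₁ : 1 ≤ E₁)
    (hmb₁ : m < b₁) (hN0 : 0 ≤ N) (hN : 2 * N ≤ (m : ℝ) ^ 2 * R ^ 2) (hb : 2 * g + w = b)
    (hc₀1 : 1 ≤ c₀) (hc₀ : c₀ ≤ R) (hRE : R ^ b ≤ E₁ * A ^ m)
    (hΛ : Real.exp (19 + 4) * ((b₁ : ℝ) ^ (2 * b₁)) * E₁ * A * T ≤ Λ) :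
    (2 * N) ^ g * ((2 * g : ℕ) : ℝ) ^ (2 * g) * c₀ ^ w ≤ x * Λ ^ m := by
  have hm1 : (1 : ℝ) ≤ (m : ℝ) := by exact_mod_cast hm
  have hm0 : (0 : ℝ) ≤ (m : ℝ) := by linarith
  have hb₁1 : (1 : ℝ) ≤ (b₁ : ℝ) := by
    have : 1 ≤ b₁ := by omega
    exact_mod_cast this
  set B : ℝ := (b₁ : ℝ) ^ (2 * b₁) with hB
  have hB1 : 1 ≤ B := one_le_pow₀ hb₁1
  have h2g : 2 * g ≤ m := by omega
  have h1 : (2 * N) ^ g ≤ ((m : ℝ) ^ 2 * R ^ 2) ^ g :=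
    pow_le_pow_left₀ (by linarith) hN g
  have h2 : ((2 * g : ℕ) : ℝ) ^ (2 * g) ≤ (m : ℝ) ^ (2 * g) := by
    apply pow_le_pow_left₀ (Nat.cast_nonneg _)
    exact_mod_cast h2g
  have h3 : c₀ ^ w ≤ R ^ w := pow_le_pow_left₀ (by linarith) hc₀ w
  have hmpow : (m : ℝ) ^ (4 * g) ≤ B := by
    calc (m : ℝ) ^ (4 * g) ≤ (b₁ : ℝ) ^ (4 * g) := by
          apply pow_le_pow_left₀ hm0
          exact_mod_cast hmb₁.le
      _ ≤ B := by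
          apply pow_le_pow_right₀ hb₁1
          omega
  have hstep : (2 * N) ^ g * ((2 * g : ℕ) : ℝ) ^ (2 * g) * c₀ ^ w ≤ (m : ℝ) ^ (4 * g) * R ^ b := by
    have hpn : 0 ≤ (2 * N) ^ g := by positivity
    calc (2 * N) ^ g * ((2 * g : ℕ) : ℝ) ^ (2 * g) * c₀ ^ w
        ≤ ((m : ℝ) ^ 2 * R ^ 2) ^ g * (m : ℝ) ^ (2 * g) * R ^ w := by
          apply mul_le_mul _ h3 (by positivity) (by positivity)
          exact mul_le_mul h1 h2 (by positivity) (by positivity)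
      _ = (m : ℝ) ^ (4 * g) * R ^ b := by
          rw [← hb, mul_pow, ← pow_mul, ← pow_mul, pow_add]
          have : (m : ℝ) ^ (4 * g) = (m : ℝ) ^ (2 * g) * (m : ℝ) ^ (2 * g) := by
            rw [← pow_add]; congr 1; omega
          rw [this]; ring
  have hA0 : (0 : ℝ) ≤ A ^ m := by positivity
  have hE0 : (0 : ℝ) ≤ E₁ := by linarith
  have hfirst : (2 * N) ^ g * ((2 * g : ℕ) : ℝ) ^ (2 * g) * c₀ ^ w ≤ B * (E₁ * A ^ m) := by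
    refine hstep.trans ?_
    exact mul_le_mul hmpow hRE (by positivity) (by linarith)
  -- the power
  have hExp : Real.exp 1 ≤ Real.exp (19 + 4) := Real.exp_le_exp.2 (by norm_num)
  have hΛ' : Real.exp 1 * (B * E₁ * A) ≤ Λ := by
    refine le_trans ?_ hΛ
    have hBEA : 0 ≤ B * E₁ * A := by positivity
    calc Real.exp 1 * (B * E₁ * A) ≤ Real.exp (19 + 4) * (B * E₁ * A) :=
          mul_le_mul_of_nonneg_right hExp hBEA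
      _ = Real.exp (19 + 4) * B * E₁ * A * 1 := by ring
      _ ≤ Real.exp (19 + 4) * B * E₁ * A * T :=
          mul_le_mul_of_nonneg_left hT1 (by positivity)
  have hpow : (Real.exp 1 * (B * E₁ * A)) ^ m ≤ Λ ^ m :=
    pow_le_pow_left₀ (by positivity) hΛ' m
  have hBE : B * E₁ ≤ (B * E₁) ^ m := by
    have h1' : 1 ≤ B * E₁ := by nlinarith
    calc B * E₁ = (B * E₁) ^ 1 := (pow_one _).symm
      _ ≤ (B * E₁) ^ m := pow_le_pow_right₀ h1' hm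
  have hexpm : Real.exp 1 ^ m = Real.exp (m : ℝ) := by
    rw [← Real.exp_nat_mul]; simp
  calc (2 * N) ^ g * ((2 * g : ℕ) : ℝ) ^ (2 * g) * c₀ ^ w ≤ B * (E₁ * A ^ m) := hfirst
    _ = 1 * (B * E₁ * A ^ m) := by ring
    _ ≤ (x * Real.exp (m : ℝ)) * ((B * E₁) ^ m * A ^ m) := by
        apply mul_le_mul hxm _ (by positivity) (by positivity)
        exact mul_le_mul_of_nonneg_right hBE hA0
    _ = x * (Real.exp 1 * (B * E₁ * A)) ^ m := by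
        rw [mul_pow (Real.exp 1), hexpm, mul_pow (B * E₁)]; ring
    _ ≤ x * Λ ^ m := mul_le_mul_of_nonneg_left hpow hx

end Vale.Agent.Lib.P064M
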