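import Vale.Agent.Lib.P064U.Thresh

/-!
Helper for the collected P064 hand-in: the windowed form of `up_thresholds`, `B = e`.
-/

namespace Vale.Agent.Lib.P064M

open Vale.Agent.Lib.P064 Vale.Agent.Lib.P064U

/-- `8 P √n ≤ 1` and `log n / n ≤ P`: the bound with `y (log n)^(7 E / 3)`. -/
theorem up_window :
    ∃ C : ℝ, 0 < C ∧ ∀ n : ℕ, 3 ≤ n → ∀ (V : Type) [Fintype V] (H : SimpleGraph V),
      Fintype.card V ≤ n → H ≠ ⊥ → 8 * pE n H * Real.sqrt n ≤ 1 → Real.log n / n ≤ pE n H →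
        pTilde n H ≤ C * (pE n H * (1 + Real.log (Real.log n)) *
            (Real.log n) ^ ((7 / 3) * max 0 (Real.log n / Real.log (1 / pE n H) - 1))) ∧
        pc n H ≤ C * Real.log n * (pE n H * (1 + Real.log (Real.log n)) *
            (Real.log n) ^ ((7 / 3) * max 0 (Real.log n / Real.log (1 / pE n H) - 1))) := by
  obtain ⟨C₁, hC₁, h1⟩ := up_thresholds
  refine ⟨10 * C₁, by positivity, ?_⟩
  intro n hn V _ H hV hH hs hp
  have hn3 : (3 : ℝ) ≤ n := by exact_mod_cast hn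
  have hn0 : (0 : ℝ) < n := by linarith
  have hx1 : 1 ≤ Real.log n := by
    have h4 : Real.log (Real.exp 1) ≤ Real.log n :=
      Real.log_le_log (Real.exp_pos 1) (by have := Real.exp_one_lt_d9; linarith)
    rwa [Real.log_exp] at h4
  have hx0 : 0 < Real.log n := by linarith
  have hE0 := pE_pos (n := n) (by omega) hV hH
  have hy0 : 0 ≤ Real.log (Real.log n) := Real.log_nonneg hx1
  obtain ⟨h3, h4⟩ := h1 n hn V H hV hH hs (Real.exp 1) le_rfl
  rw [Real.log_exp, div_one] at h3 h4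
  set X := (Real.log n) ^ ((7 / 3) * max 0 (Real.log n / Real.log (1 / pE n H) - 1)) with hX
  have hX1 : 1 ≤ X := Real.one_le_rpow hx1 (by
    have : (0 : ℝ) ≤ max 0 (Real.log n / Real.log (1 / pE n H) - 1) := le_max_left _ _
    positivity)
  have hn1 : 1 / (n : ℝ) ≤ pE n H := by
    refine le_trans ?_ hp
    exact div_le_div_of_nonneg_right hx1 hn0.le
  have hE3 : Real.exp 1 ≤ 3 := by
    have := Real.exp_one_lt_d9
    linarith
  obtain ⟨Y, hY⟩ : ∃ Y, Y = 1 + Real.log (Real.log n) := ⟨_, rfl⟩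
  rw [← hY] at h3 h4 ⊢
  have hY1 : 1 ≤ Y := by rw [hY]; linarith
  have hYX : 1 ≤ Y * X := by nlinarith
  obtain ⟨Z, hZ⟩ : ∃ Z, Z = pE n H * Y * X := ⟨_, rfl⟩
  rw [← hZ]
  have hZ0 : 0 < Z := by
    rw [hZ]
    positivity
  have hbr : (pE n H + 1 / n) * Y * Real.exp 1 * X + Real.log n / n ≤ 7 * Z := by
    have h5 : (pE n H + 1 / n) * Y * Real.exp 1 * X ≤ (2 * pE n H) * Y * 3 * X := by
      gcongr
      linarith
    have h6 : pE n H * 1 ≤ pE n H * (Y * X) := mul_le_mul_of_nonneg_left hYX hE0.le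
    have h7 : (2 * pE n H) * Y * 3 * X = 6 * Z := by
      rw [hZ]
      ring
    have h8 : pE n H * (Y * X) = Z := by
      rw [hZ]
      ring
    linarith
  constructor
  · have h5 := mul_le_mul_of_nonneg_left hbr hC₁.le
    have h6 : 0 ≤ (3 * C₁) * Z := by positivity
    have h7 : (10 * C₁) * Z = (3 * C₁) * Z + C₁ * (7 * Z) := by ring
    rw [h7]
    linarith
  · have h5 := mul_le_mul_of_nonneg_left hbr (show 0 ≤ C₁ * Real.log n by positivity)
    have h6 : 0 ≤ (3 * C₁) * Real.log n * Z := by positivity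
    have h7 : (10 * C₁) * Real.log n * Z =
        (3 * C₁) * Real.log n * Z + C₁ * Real.log n * (7 * Z) := by ring
    rw [h7]
    linarith

/-- Raising the constant. -/
lemma raise {a b C C' : ℝ} (h : a ≤ C * b) (hb : 0 ≤ b) (hC : C ≤ C') : a ≤ C' * b :=
  h.trans (mul_le_mul_of_nonneg_right hC hb)

end Vale.Agent.Lib.P064M
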